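import Vale.Agent.P254U.Defs

open MeasureTheory Set Vale.Agent.P254
open scoped ENNReal

namespace Vale.Agent.P254U


private theorem crn_flip {n : ℕ} {K : Set (Fin n → ℝ)} (hs : Unconditional K) {z : Fin n → ℝ}
    (hz : z ∈ K) (j : Fin n) : Function.update z j (-z j) ∈ K := by
  have h := hs z hz (Function.update (fun _ => 1) j (-1)) (by
    intro i
    by_cases hi : i = j
    · subst hi; right; simp
    · left; simp [hi])
  convert h using 1
  funext i
  by_cases hi : i = j
  · subst hi; simp
  · simp [hi]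

private theorem crn_step {n : ℕ} {K : Set (Fin n → ℝ)} (hc : Convex ℝ K) (hs : Unconditional K)
    {z : Fin n → ℝ} (hz : z ∈ K) (j : Fin n) {t : ℝ} (h0 : 0 ≤ t) (h1 : t ≤ z j) :
    Function.update z j t ∈ K := by
  rcases eq_or_lt_of_le (h0.trans h1) with h | h
  · have ht : t = z j := le_antisymm h1 (by rw [← h]; exact h0)
    rw [ht, Function.update_eq_self]
    exact hz
  · have hθ0 : 0 ≤ (z j + t) / (2 * z j) := by positivity
    have hθ1 : 0 ≤ (z j - t) / (2 * z j) := div_nonneg (by linarith) (by positivity)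
    have hsum : (z j + t) / (2 * z j) + (z j - t) / (2 * z j) = 1 := by
      field_simp; ring
    have := hc hz (crn_flip hs hz j) hθ0 hθ1 hsum
    convert this using 1
    funext i
    by_cases hi : i = j
    · subst hi
      simp only [Function.update_self, Pi.add_apply, Pi.smul_apply, smul_eq_mul]
      field_simp
      ring
    · simp only [Function.update_of_ne hi, Pi.add_apply, Pi.smul_apply, smul_eq_mul]
      rw [← add_mul, hsum, one_mul]

/-- CRN. Down-closed: if `0 ≤ y ≤ x ∈ K` then `y` is a convex combination of sign changes of `x`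
(change one coordinate at a time). -/
theorem pos_corner0 {n : ℕ} {K : Set (Fin n → ℝ)} (hK : IsBody K) (hs : Unconditional K) :
    Corner0 (pos K) where
  compact := by
    apply hK.1.inter_right
    have : {x : Fin n → ℝ | ∀ i, 0 ≤ x i} = ⋂ i, {x | 0 ≤ x i} := by
      ext x; simp
    rw [this]
    exact isClosed_iInter fun i => isClosed_le continuous_const (continuous_apply i)
  convex := by
    apply hK.2.1.inter
    intro x hx y hy a b ha hb _ i
    have h1 := hx i
    have h2 := hy i
    simp only [Pi.add_apply, Pi.smul_apply, smul_eq_mul]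
    positivity
  nonneg := fun x hx => hx.2
  down := by
    intro x hx y hy0 hyx
    refine ⟨?_, hy0⟩
    have key : ∀ s : Finset (Fin n), (fun i => if i ∈ s then y i else x i) ∈ K := by
      intro s
      induction s using Finset.induction_on with
      | empty => simpa using hx.1
      | insert j s hj ih =>
        have h := crn_step hK.2.1 hs ih j (t := y j) (hy0 j) (by simpa [hj] using hyx j)
        convert h using 1
        funext i
        by_cases hi : i = j
        · subst hi; simp
        · simp [hi]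
    simpa using key Finset.univ



private theorem ORT_abs : MeasurePreserving (fun x : ℝ => |x|) volume
    ((2 : ℝ≥0∞) • volume.restrict (Ici (0 : ℝ))) := by
  have hm : Measurable (fun x : ℝ => |x|) := continuous_abs.measurable
  refine ⟨hm, ?_⟩
  ext s hs
  rw [Measure.map_apply hm hs, Measure.smul_apply, Measure.restrict_apply hs, smul_eq_mul]
  have h1 := measure_inter_add_sdiff (μ := (volume : Measure ℝ)) ((fun x : ℝ => |x|) ⁻¹' s)
    (measurableSet_Ioi (a := (0 : ℝ)))
  rw [← h1]
  have e1 : (fun x : ℝ => |x|) ⁻¹' s ∩ Ioi 0 = s ∩ Ioi 0 := by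
    ext x
    simp only [mem_inter_iff, mem_preimage, mem_Ioi]
    constructor
    · rintro ⟨h2, h3⟩
      rw [abs_of_pos h3] at h2
      exact ⟨h2, h3⟩
    · rintro ⟨h2, h3⟩
      rw [abs_of_pos h3]
      exact ⟨h2, h3⟩
  have e2 : (fun x : ℝ => |x|) ⁻¹' s \ Ioi 0 = -(s ∩ Ici 0) := by
    ext x
    simp only [mem_sdiff, mem_preimage, mem_Ioi, mem_neg, mem_inter_iff, mem_Ici, not_lt]
    constructor
    · rintro ⟨h2, h3⟩
      rw [abs_of_nonpos h3] at h2
      exact ⟨h2, by linarith⟩
    · rintro ⟨h2, h3⟩
      have h4 : x ≤ 0 := by linarith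
      rw [abs_of_nonpos h4]
      exact ⟨h2, h4⟩
  rw [e1, e2, Measure.measure_neg]
  have e3 : volume (s ∩ Ioi (0 : ℝ)) = volume (s ∩ Ici (0 : ℝ)) :=
    measure_congr ((Filter.EventuallyEq.refl _ s).inter Ioi_ae_eq_Ici)
  rw [e3, two_mul]

private theorem ORT_sf : SigmaFinite ((2 : ℝ≥0∞) • (volume : Measure ℝ).restrict (Ici (0 : ℝ))) := by
  have e1 : (2 : ℝ≥0∞) • (volume : Measure ℝ).restrict (Ici (0 : ℝ))
      = (volume : Measure ℝ).restrict (Ici (0 : ℝ)) + (volume : Measure ℝ).restrict (Ici (0 : ℝ)) := by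
    rw [two_smul]
  rw [e1]
  infer_instance

private theorem ORT_pi (n : ℕ) :
    Measure.pi (fun _ : Fin n => (2 : ℝ≥0∞) • volume.restrict (Ici (0 : ℝ)))
      = (2 : ℝ≥0∞) ^ n • (volume : Measure (Fin n → ℝ)).restrict
        (univ.pi fun _ => Ici (0 : ℝ)) := by
  have : SigmaFinite ((2 : ℝ≥0∞) • (volume : Measure ℝ).restrict (Ici (0 : ℝ))) := ORT_sf
  refine Measure.pi_eq fun s hs => ?_
  rw [Measure.smul_apply, Measure.restrict_apply (MeasurableSet.univ_pi hs), ← pi_inter_distrib,
    volume_pi, Measure.pi_pi, smul_eq_mul]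
  simp only [Measure.smul_apply, smul_eq_mul]
  rw [Finset.prod_mul_distrib]
  simp [Measure.restrict_apply (hs _)]

private theorem ORT_mp (n : ℕ) : MeasurePreserving (fun (x : Fin n → ℝ) i => |x i|) volume
    ((2 : ℝ≥0∞) ^ n • (volume : Measure (Fin n → ℝ)).restrict
        (univ.pi fun _ => Ici (0 : ℝ))) := by
  have : SigmaFinite ((2 : ℝ≥0∞) • (volume : Measure ℝ).restrict (Ici (0 : ℝ))) := ORT_sf
  rw [← ORT_pi]
  exact measurePreserving_pi (fun _ => volume) _ fun _ => ORT_abs

private theorem ORT_mem {n : ℕ} {K : Set (Fin n → ℝ)} (hs : Unconditional K) (x : Fin n → ℝ) :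
    (fun i => |x i|) ∈ K ↔ x ∈ K := by
  classical
  have hε : ∀ i, (if 0 ≤ x i then (1 : ℝ) else -1) = 1 ∨ (if 0 ≤ x i then (1 : ℝ) else -1) = -1 := by
    intro i
    split_ifs
    · exact Or.inl rfl
    · exact Or.inr rfl
  constructor
  · intro hx
    have h1 := hs _ hx _ hε
    have e1 : (fun i => (if 0 ≤ x i then (1 : ℝ) else -1) * |x i|) = x := by
      funext i
      split_ifs with h
      · rw [abs_of_nonneg h, one_mul]
      · rw [abs_of_neg (not_le.1 h)]
        ring
    rw [e1] at h1
    exact h1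
  · intro hx
    have h1 := hs _ hx _ hε
    have e1 : (fun i => (if 0 ≤ x i then (1 : ℝ) else -1) * x i)
        = fun i => |x i| := by
      funext i
      split_ifs with h
      · rw [abs_of_nonneg h, one_mul]
      · rw [abs_of_neg (not_le.1 h)]
        ring
    rw [e1] at h1
    exact h1

/-- ORT. Fold one coordinate at a time: the reflection `x_j ↦ - x_j` preserves the measure and
`{x | x j = 0}` is a null set. -/
theorem orthant0 {n : ℕ} {K : Set (Fin n → ℝ)} (hK : MeasurableSet K) (hs : Unconditional K)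
    {f : (Fin n → ℝ) → ℝ≥0∞} (hf : Measurable f) :
    ∫⁻ x in K, f (fun i => |x i|) = 2 ^ n * ∫⁻ x in pos K, f x := by
  have hmp := ORT_mp n
  have e1 : ∫⁻ x in K, f (fun i => |x i|)
      = ∫⁻ x : Fin n → ℝ, K.indicator f (fun i => |x i|) := by
    rw [← lintegral_indicator hK]
    refine lintegral_congr fun x => ?_
    by_cases hx : x ∈ K
    · rw [indicator_of_mem hx, indicator_of_mem ((ORT_mem hs x).2 hx)]
    · rw [indicator_of_notMem hx, indicator_of_notMem fun h => hx ((ORT_mem hs x).1 h)]
  rw [e1, hmp.lintegral_comp (hf.indicator hK), lintegral_smul_measure, smul_eq_mul,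
    lintegral_indicator hK, Measure.restrict_restrict hK]
  have e2 : K ∩ (univ.pi fun _ : Fin n => Ici (0 : ℝ)) = pos K := by
    ext x
    simp only [pos, mem_inter_iff, mem_pi, mem_univ, mem_Ici, forall_true_left, mem_setOf_eq]
  rw [e2]

end Vale.Agent.P254U
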