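import Vale.Agent.P254U.Defs

open MeasureTheory Set Vale.Agent.P254
open scoped ENNReal

namespace Vale.Agent.P254U

private theorem PR12_append_left {m n : ℕ} (x : Fin m → ℝ) (y : Fin n → ℝ) :
    (fun i => Fin.append x y (Fin.castAdd n i)) = x := by
  funext i
  simp

private theorem PR12_append_right {m n : ℕ} (x : Fin m → ℝ) (y : Fin n → ℝ) :
    (fun j => Fin.append x y (Fin.natAdd m j)) = y := by
  funext i
  simp

/-- PR1 -/
theorem prod_body {m n : ℕ} {K : Set (Fin m → ℝ)} {L : Set (Fin n → ℝ)} (hK : IsBody K)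
    (hL : IsBody L) : IsBody (prodSet K L) := by
  have hcl : Continuous fun x : Fin (m + n) → ℝ => fun i : Fin m => x (Fin.castAdd n i) := by
    fun_prop
  have hcr : Continuous fun x : Fin (m + n) → ℝ => fun j : Fin n => x (Fin.natAdd m j) := by
    fun_prop
  refine ⟨?_, ?_, ?_⟩
  · have himg : prodSet K L = (fun p : (Fin m → ℝ) × (Fin n → ℝ) => Fin.append p.1 p.2) ''
        (K ×ˢ L) := by
      ext x
      constructor
      · rintro ⟨h1, h2⟩
        refine ⟨(fun i => x (Fin.castAdd n i), fun j => x (Fin.natAdd m j)), ⟨h1, h2⟩, ?_⟩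
        funext k
        refine Fin.addCases (fun i => ?_) (fun j => ?_) k
        · simp
        · simp
      · rintro ⟨⟨a, b⟩, ⟨ha, hb⟩, rfl⟩
        refine ⟨?_, ?_⟩
        · simp only [PR12_append_left]
          exact ha
        · simp only [PR12_append_right]
          exact hb
    rw [himg]
    refine (hK.1.prod hL.1).image ?_
    refine continuous_pi fun k => ?_
    refine Fin.addCases (fun i => ?_) (fun j => ?_) k
    · simp only [Fin.append_left]
      fun_prop
    · simp only [Fin.append_right]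
      fun_prop
  · intro x hx y hy a b ha hb hab
    exact ⟨hK.2.1 hx.1 hy.1 ha hb hab, hL.2.1 hx.2 hy.2 ha hb hab⟩
  · obtain ⟨a, ha⟩ := hK.2.2
    obtain ⟨b, hb⟩ := hL.2.2
    refine ⟨Fin.append a b, ?_⟩
    have hopen : IsOpen ((fun x : Fin (m + n) → ℝ => fun i : Fin m => x (Fin.castAdd n i)) ⁻¹'
        interior K ∩ (fun x : Fin (m + n) → ℝ => fun j : Fin n => x (Fin.natAdd m j)) ⁻¹'
        interior L) :=
      (isOpen_interior.preimage hcl).inter (isOpen_interior.preimage hcr)
    refine interior_maximal ?_ hopen ⟨?_, ?_⟩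
    · intro x hx
      exact ⟨interior_subset hx.1, interior_subset hx.2⟩
    · show (fun i => Fin.append a b (Fin.castAdd n i)) ∈ interior K
      rw [PR12_append_left]
      exact ha
    · show (fun j => Fin.append a b (Fin.natAdd m j)) ∈ interior L
      rw [PR12_append_right]
      exact hb

/-- PR2 -/
theorem prod_uncond {m n : ℕ} {K : Set (Fin m → ℝ)} {L : Set (Fin n → ℝ)}
    (hK : Unconditional K) (hL : Unconditional L) : Unconditional (prodSet K L) := by
  intro x hx ε hε
  exact ⟨hK _ hx.1 (fun i => ε (Fin.castAdd n i)) fun i => hε _,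
    hL _ hx.2 (fun j => ε (Fin.natAdd m j)) fun j => hε _⟩

/-- the measure preserving equivalence -/
noncomputable def PR3_e (m n : ℕ) : ((Fin m → ℝ) × (Fin n → ℝ)) ≃ᵐ (Fin (m + n) → ℝ) :=
  (MeasurableEquiv.sumPiEquivProdPi (fun _ : Fin m ⊕ Fin n => ℝ)).symm.trans
    (MeasurableEquiv.piCongrLeft (fun _ : Fin (m + n) => ℝ) finSumFinEquiv)

theorem PR3_mp (m n : ℕ) : MeasurePreserving (PR3_e m n) volume volume :=
  (volume_measurePreserving_piCongrLeft (fun _ : Fin (m + n) => ℝ) finSumFinEquiv).comp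
    (volume_measurePreserving_sumPiEquivProdPi_symm (fun _ : Fin m ⊕ Fin n => ℝ))

theorem PR3_left (m n : ℕ) (p : (Fin m → ℝ) × (Fin n → ℝ)) (i : Fin m) :
    PR3_e m n p (Fin.castAdd n i) = p.1 i := by
  have h : Fin.castAdd n i = finSumFinEquiv (Sum.inl i) := by simp
  rw [h]
  change MeasurableEquiv.piCongrLeft (fun _ : Fin (m + n) => ℝ) finSumFinEquiv _ _ = _
  rw [MeasurableEquiv.piCongrLeft_apply_apply]
  rfl

theorem PR3_right (m n : ℕ) (p : (Fin m → ℝ) × (Fin n → ℝ)) (j : Fin n) :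
    PR3_e m n p (Fin.natAdd m j) = p.2 j := by
  have h : Fin.natAdd m j = finSumFinEquiv (Sum.inr j) := by simp
  rw [h]
  change MeasurableEquiv.piCongrLeft (fun _ : Fin (m + n) => ℝ) finSumFinEquiv _ _ = _
  rw [MeasurableEquiv.piCongrLeft_apply_apply]
  rfl

theorem PR3_pre {m n : ℕ} (K : Set (Fin m → ℝ)) (L : Set (Fin n → ℝ)) :
    PR3_e m n ⁻¹' (prodSet K L) = K ×ˢ L := by
  ext p
  simp only [mem_preimage, prodSet, mem_ofPred_eq, PR3_left, PR3_right, mem_prod]

theorem PR3_vol {m n : ℕ} (K : Set (Fin m → ℝ)) (L : Set (Fin n → ℝ)) :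
    volume (prodSet K L) = volume K * volume L := by
  rw [← (PR3_mp m n).measure_preimage_equiv, PR3_pre, Measure.volume_eq_prod, Measure.prod_prod]

theorem PR3_int {m n : ℕ} (K : Set (Fin m → ℝ)) (L : Set (Fin n → ℝ))
    (f : (Fin (m + n) → ℝ) → ℝ) :
    ∫ x in prodSet K L, f x = ∫ p in K ×ˢ L, f (PR3_e m n p) ∂(volume.prod volume) := by
  rw [← PR3_pre K L, ← Measure.volume_eq_prod]
  exact ((PR3_mp m n).setIntegral_preimage_emb (PR3_e m n).measurableEmbedding f _).symm

theorem PR3_int_left {m n : ℕ} (K : Set (Fin m → ℝ)) (L : Set (Fin n → ℝ)) (i : Fin m) :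
    ∫ x in prodSet K L, |x (Fin.castAdd n i)| = (∫ u in K, |u i|) * (volume L).toReal := by
  rw [PR3_int]
  simp only [PR3_left]
  have h := setIntegral_prod_mul (μ := (volume : Measure (Fin m → ℝ)))
    (ν := (volume : Measure (Fin n → ℝ))) (fun u : Fin m → ℝ => |u i|) (fun _ => (1 : ℝ)) K L
  simp only [mul_one] at h
  rw [h]
  simp [Measure.real]

theorem PR3_int_right {m n : ℕ} (K : Set (Fin m → ℝ)) (L : Set (Fin n → ℝ)) (j : Fin n) :
    ∫ x in prodSet K L, |x (Fin.natAdd m j)| = (volume K).toReal * (∫ v in L, |v j|) := by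
  rw [PR3_int]
  simp only [PR3_right]
  have h := setIntegral_prod_mul (μ := (volume : Measure (Fin m → ℝ)))
    (ν := (volume : Measure (Fin n → ℝ))) (fun _ => (1 : ℝ)) (fun v : Fin n → ℝ => |v j|) K L
  simp only [one_mul] at h
  rw [h]
  simp [Measure.real]

theorem PR3_pos {n : ℕ} {K : Set (Fin n → ℝ)} (hK : IsBody K) : 0 < (volume K).toReal :=
  ENNReal.toReal_pos (Measure.measure_pos_of_nonempty_interior volume hK.2.2).ne' hK.1.measure_lt_top.ne

/-- PR3. The measure preserving equivalence `(Fin m → ℝ) × (Fin n → ℝ) ≃ (Fin (m + n) → ℝ)`;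
volume and moments factor. -/
theorem prod_momProp {m n : ℕ} {K : Set (Fin m → ℝ)} {L : Set (Fin n → ℝ)} (hK : IsBody K)
    (hL : IsBody L) (hmK : MomProp K) (hmL : MomProp L) : MomProp (prodSet K L) := by
  have hk := PR3_pos hK
  have hl := PR3_pos hL
  unfold MomProp at *
  rw [Fin.prod_univ_add, PR3_vol, ENNReal.toReal_mul]
  have h1 : ∀ i : Fin m, 4 * ((∫ x in prodSet K L, |x (Fin.castAdd n i)|) /
      ((volume K).toReal * (volume L).toReal)) = 4 * ((∫ x in K, |x i|) / (volume K).toReal) := by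
    intro i
    rw [PR3_int_left, mul_div_mul_right _ _ hl.ne']
  have h2 : ∀ j : Fin n, 4 * ((∫ x in prodSet K L, |x (Fin.natAdd m j)|) /
      ((volume K).toReal * (volume L).toReal)) = 4 * ((∫ x in L, |x j|) / (volume L).toReal) := by
    intro j
    rw [PR3_int_right, mul_div_mul_left _ _ hk.ne']
  rw [Finset.prod_congr rfl fun i _ => h1 i, Finset.prod_congr rfl fun j _ => h2 j]
  refine mul_le_mul hmK hmL ?_ hk.le
  refine Finset.prod_nonneg fun j _ => ?_
  exact mul_nonneg (by norm_num) (div_nonneg (integral_nonneg fun _ => abs_nonneg _) hl.le)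

end Vale.Agent.P254U
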