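import Vale.Agent.P254U.OrlM
import Vale.Agent.P254U.Body

open MeasureTheory Set Vale.Agent.P254
open scoped ENNReal

namespace Vale.Agent.P254U

theorem BL_psi_convex {φ : ℝ → ℝ} (h : Young φ) : ConvexOn ℝ univ fun x : ℝ => φ |x| := by
  refine ⟨convex_univ, ?_⟩
  intro x _ y _ a b ha hb hab
  have h1 : |a • x + b • y| ≤ a • |x| + b • |y| := by
    simp only [smul_eq_mul]
    calc |a * x + b * y| ≤ |a * x| + |b * y| := abs_add_le _ _
      _ = a * |x| + b * |y| := by rw [abs_mul, abs_mul, abs_of_nonneg ha, abs_of_nonneg hb]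
  have h2 : (0 : ℝ) ≤ a • |x| + b • |y| := (abs_nonneg _).trans h1
  calc φ |a • x + b • y| ≤ φ (a • |x| + b • |y|) := h.mono (mem_Ici.mpr (abs_nonneg _)) (mem_Ici.mpr h2) h1
    _ ≤ a • φ |x| + b • φ |y| := h.convex.2 (mem_Ici.mpr (abs_nonneg x)) (mem_Ici.mpr (abs_nonneg y)) ha hb hab

theorem BL_psi_cont {φ : ℝ → ℝ} (h : Young φ) : Continuous fun x : ℝ => φ |x| := by
  have := (BL_psi_convex h).continuousOn isOpen_univ
  exact continuousOn_univ.mp this

theorem BL_F_cont {n : ℕ} {φ : Fin n → ℝ → ℝ} (hφ : ∀ i, Young (φ i)) :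
    Continuous fun x : Fin n → ℝ => ∑ i, φ i |x i| :=
  continuous_finsetSum _ fun i _ => (BL_psi_cont (hφ i)).comp (continuous_apply i)

theorem BL_nonneg {φ : ℝ → ℝ} (h : Young φ) (x : ℝ) : 0 ≤ φ |x| := by
  have := h.mono (mem_Ici.mpr le_rfl) (mem_Ici.mpr (abs_nonneg x)) (abs_nonneg x)
  rwa [h.zero] at this

/-- BL1 -/
theorem orlBall_body {n : ℕ} {φ : Fin n → ℝ → ℝ} (hφ : ∀ i, Young (φ i)) :
    IsBody (orlBall φ) := by
  have hF := BL_F_cont hφ
  refine ⟨?_, ?_, ?_⟩
  · -- bounded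
    have hR : ∀ i, ∃ R : ℝ, ∀ t, R ≤ t → 1 < φ i t := by
      intro i
      have h1 := (hφ i).top.eventually (Filter.eventually_gt_atTop 1)
      obtain ⟨R, hR⟩ := Filter.eventually_atTop.mp h1
      exact ⟨R, hR⟩
    choose R hR using hR
    have hsub : orlBall φ ⊆ Set.Icc (fun i => -|R i|) (fun i => |R i|) := by
      intro x hx
      have hx1 : ∀ i, |x i| ≤ |R i| := by
        intro i
        by_contra hcon
        push Not at hcon
        have h1 : 1 < φ i |x i| := hR i _ ((le_abs_self _).trans hcon.le)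
        have h2 : φ i |x i| ≤ ∑ j, φ j |x j| :=
          Finset.single_le_sum (f := fun j => φ j |x j|) (fun j _ => BL_nonneg (hφ j) (x j))
            (Finset.mem_univ i)
        have h3 : ∑ j, φ j |x j| ≤ 1 := hx
        linarith
      exact ⟨fun i => (abs_le.mp (hx1 i)).1, fun i => (abs_le.mp (hx1 i)).2⟩
    refine isCompact_Icc.of_isClosed_subset ?_ hsub
    exact isClosed_le hF continuous_const
  · intro x hx y hy a b ha hb hab
    have h1 : ∑ i, φ i |(a • x + b • y) i| ≤ ∑ i, (a * φ i |x i| + b * φ i |y i|) := by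
      refine Finset.sum_le_sum fun i _ => ?_
      have := (BL_psi_convex (hφ i)).2 (mem_univ (x i)) (mem_univ (y i)) ha hb hab
      simpa using this
    have h2 : ∑ i, (a * φ i |x i| + b * φ i |y i|) =
        a * ∑ i, φ i |x i| + b * ∑ i, φ i |y i| := by
      rw [Finset.sum_add_distrib, Finset.mul_sum, Finset.mul_sum]
    have hx1 : ∑ i, φ i |x i| ≤ 1 := hx
    have hy1 : ∑ i, φ i |y i| ≤ 1 := hy
    show ∑ i, φ i |(a • x + b • y) i| ≤ 1
    calc ∑ i, φ i |(a • x + b • y) i| ≤ a * ∑ i, φ i |x i| + b * ∑ i, φ i |y i| := by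
          rw [← h2]
          exact h1
      _ ≤ a * 1 + b * 1 := by gcongr
      _ = 1 := by rw [mul_one, mul_one, hab]
  · refine ⟨0, ?_⟩
    rw [mem_interior]
    refine ⟨{x | ∑ i, φ i |x i| < 1}, ?_, isOpen_lt hF continuous_const, ?_⟩
    · intro x hx
      have hx' : ∑ i, φ i |x i| < 1 := hx
      exact hx'.le
    · show ∑ i, φ i |(0 : Fin n → ℝ) i| < 1
      have : ∀ i, φ i |(0 : Fin n → ℝ) i| = 0 := by
        intro i
        simp [(hφ i).zero]
      simp only [this]
      simp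

/-- BL2 -/
theorem orlBall_uncond {n : ℕ} (φ : Fin n → ℝ → ℝ) : Unconditional (orlBall φ) := by
  intro x hx ε hε
  show ∑ i, φ i |ε i * x i| ≤ 1
  have h1 : ∀ i, |ε i * x i| = |x i| := by
    intro i
    rcases hε i with h | h <;> simp [h]
  simp only [h1]
  exact hx

/-- BL3. `pos (orlBall φ) = orl φ 1`, `orthant0` and `orl_main`. -/
theorem orlBall_momProp {n : ℕ} (hn : 1 ≤ n) {φ : Fin n → ℝ → ℝ} (hφ : ∀ i, Young (φ i)) :
    MomProp (orlBall φ) := by
  obtain ⟨k, rfl⟩ : ∃ k, n = k + 1 := ⟨n - 1, by omega⟩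
  have hK := orlBall_body hφ
  have hs := orlBall_uncond φ
  have hKm : MeasurableSet (orlBall φ) := hK.1.isClosed.measurableSet
  have hpos : pos (orlBall φ) = orl φ 1 := by
    ext x
    constructor
    · rintro ⟨h1, h2⟩
      refine ⟨h2, ?_⟩
      have h3 : ∑ i, φ i |x i| ≤ 1 := h1
      have h4 : ∀ i, φ i |x i| = φ i (x i) := fun i => by rw [abs_of_nonneg (h2 i)]
      simpa only [h4] using h3
    · rintro ⟨h1, h2⟩
      refine ⟨?_, h1⟩
      show ∑ i, φ i |x i| ≤ 1
      have h4 : ∀ i, φ i |x i| = φ i (x i) := fun i => by rw [abs_of_nonneg (h1 i)]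
      simpa only [h4] using h2
  have hmain := orl_main k φ hφ 1
  set V := ov φ 1 with hV
  set M : Fin (k + 1) → ℝ≥0∞ := fun i => ∫⁻ x in orl φ 1, ENNReal.ofReal (x i) with hM
  have hvol : volume (orlBall φ) = 2 ^ (k + 1) * V := by
    have := orthant0 hKm hs (f := fun _ => 1) measurable_const
    rw [hpos] at this
    simpa [ov, hV] using this
  have hKfin : volume (orlBall φ) ≠ ∞ := hK.1.measure_lt_top.ne
  have hKpos : volume (orlBall φ) ≠ 0 :=
    (Measure.measure_pos_of_nonempty_interior volume hK.2.2).ne'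
  have hVfin : V ≠ ∞ := by
    intro h
    rw [hvol, h] at hKfin
    simp at hKfin
  have hVpos : V ≠ 0 := by
    intro h
    rw [hvol, h] at hKpos
    simp at hKpos
  have hint : ∀ i, ∫ x in orlBall φ, |x i| = 2 ^ (k + 1) * (M i).toReal := by
    intro i
    have hcont : Continuous fun x : Fin (k + 1) → ℝ => |x i| := by fun_prop
    rw [integral_eq_lintegral_of_nonneg_ae (Filter.Eventually.of_forall fun x => abs_nonneg _)
      hcont.aestronglyMeasurable]
    have h3 : ∫⁻ x in orlBall φ, ENNReal.ofReal |x i| = 2 ^ (k + 1) * M i := by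
      have h4 := orthant0 hKm hs (f := fun x => ENNReal.ofReal (x i)) (by fun_prop)
      rw [hpos] at h4
      exact h4
    rw [h3, ENNReal.toReal_mul]
    simp
  have hvolr : (volume (orlBall φ)).toReal = 2 ^ (k + 1) * V.toReal := by
    rw [hvol, ENNReal.toReal_mul]
    simp
  have hv := ENNReal.toReal_pos hVpos hVfin
  have h5 : 2 ^ (k + 1) * ∏ i, (M i).toReal ≤ V.toReal ^ (k + 2) := by
    have h3 := ENNReal.toReal_mono (ENNReal.pow_ne_top hVfin) hmain
    rw [ENNReal.toReal_mul, ENNReal.toReal_pow, ENNReal.toReal_prod, ENNReal.toReal_pow] at h3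
    simpa using h3
  unfold MomProp
  simp only [hint, hvolr]
  have h6 : ∀ i, 4 * (2 ^ (k + 1) * (M i).toReal / (2 ^ (k + 1) * V.toReal)) =
      (4 / V.toReal) * (M i).toReal := by
    intro i
    rw [mul_div_mul_left _ _ (by positivity)]
    ring
  simp only [h6]
  rw [Finset.prod_mul_distrib, Finset.prod_const, Finset.card_univ, Fintype.card_fin, div_pow,
    div_mul_eq_mul_div, div_le_iff₀ (by positivity)]
  have h7 : (4 : ℝ) ^ (k + 1) = 2 ^ (k + 1) * 2 ^ (k + 1) := by
    rw [← mul_pow]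
    norm_num
  rw [h7]
  calc (2 : ℝ) ^ (k + 1) * 2 ^ (k + 1) * ∏ i, (M i).toReal =
      2 ^ (k + 1) * (2 ^ (k + 1) * ∏ i, (M i).toReal) := by ring
    _ ≤ 2 ^ (k + 1) * V.toReal ^ (k + 2) := by gcongr
    _ = 2 ^ (k + 1) * V.toReal * V.toReal ^ (k + 1) := by ring

end Vale.Agent.P254U
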