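import Vale.Agent.P254U.Defs

open MeasureTheory Set Vale.Agent.P254
open scoped ENNReal

namespace Vale.Agent.P254U


/-- sign flip of the coordinates -/
def cvuFlip {n : ℕ} (ε : Fin n → ℝ) (hε : ∀ i, ε i = 1 ∨ ε i = -1) :
    (Fin n → ℝ) ≃ᵐ (Fin n → ℝ) where
  toFun x := fun i => ε i * x i
  invFun x := fun i => ε i * x i
  left_inv x := by
    funext i
    rcases hε i with h | h <;> simp [h]
  right_inv x := by
    funext i
    rcases hε i with h | h <;> simp [h]
  measurable_toFun := by
    apply measurable_pi_lambda
    intro i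
    exact (measurable_pi_apply i).const_mul _
  measurable_invFun := by
    apply measurable_pi_lambda
    intro i
    exact (measurable_pi_apply i).const_mul _

theorem cvuFlip_mp {n : ℕ} (ε : Fin n → ℝ) (hε : ∀ i, ε i = 1 ∨ ε i = -1) :
    MeasurePreserving (cvuFlip ε hε) (volume : Measure (Fin n → ℝ)) volume := by
  have h : ∀ i, MeasurePreserving (fun t : ℝ => ε i * t) volume volume := by
    intro i
    rcases hε i with h | h
    · rw [h]
      simp only [one_mul]
      exact MeasurePreserving.id _
    · rw [h]
      simp only [neg_one_mul]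
      exact Measure.measurePreserving_neg volume
  exact volume_preserving_pi h

theorem cvu_flip_int {n : ℕ} {K : Set (Fin n → ℝ)} (hs : Unconditional K) (ε : Fin n → ℝ)
    (hε : ∀ i, ε i = 1 ∨ ε i = -1) (f : (Fin n → ℝ) → ℝ) :
    ∫ x in K, f (fun i => ε i * x i) = ∫ x in K, f x := by
  have h1 := (cvuFlip_mp ε hε).setIntegral_preimage_emb (cvuFlip ε hε).measurableEmbedding f K
  have h2 : (cvuFlip ε hε) ⁻¹' K = K := by
    ext x
    constructor
    · intro hx
      have h3 := hs _ hx ε hε
      have h4 : (fun i => ε i * (cvuFlip ε hε) x i) = x := by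
        funext i
        change ε i * (ε i * x i) = x i
        rcases hε i with h | h <;> simp [h]
      rwa [h4] at h3
    · intro hx
      exact hs x hx ε hε
  rw [h2] at h1
  exact h1

/-- CVU. As P254/Cov.lean. -/
theorem isoConst_uncond {n : ℕ} {K : Set (Fin n → ℝ)} (hs : Unconditional K) :
    isoConst K = ((∏ i, ((∫ x in K, (x i) ^ 2) / (volume K).toReal)) /
      (volume K).toReal ^ 2) ^ (1 / (2 * (n : ℝ))) := by
  classical
  have hflip : ∀ i j : Fin n,
      (if j = i then (-1 : ℝ) else 1) = 1 ∨ (if j = i then (-1 : ℝ) else 1) = -1 := by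
    intro i j
    split_ifs
    · exact Or.inr rfl
    · exact Or.inl rfl
  have hc : ∀ i, centroid K i = 0 := by
    intro i
    have h := cvu_flip_int hs (fun j => if j = i then (-1 : ℝ) else 1) (hflip i) (fun x => x i)
    simp only [if_true, neg_one_mul] at h
    rw [integral_neg] at h
    have h0 : ∫ x in K, x i = 0 := by linarith
    unfold centroid
    rw [h0, zero_div]
  have hoff : ∀ i j, i ≠ j → ∫ x in K, x i * x j = 0 := by
    intro i j hij
    have h := cvu_flip_int hs (fun j => if j = i then (-1 : ℝ) else 1) (hflip i)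
      (fun x => x i * x j)
    simp only [if_true, if_neg hij.symm, one_mul, neg_mul] at h
    rw [integral_neg] at h
    linarith
  have hM : covMat K = Matrix.diagonal
      (fun i => (∫ x in K, (x i) ^ 2) / (volume K).toReal) := by
    ext i j
    unfold covMat
    rw [Matrix.of_apply, Matrix.diagonal_apply]
    simp only [hc, sub_zero]
    split_ifs with h
    · subst h
      congr 2
      funext x
      ring
    · rw [hoff i j h, zero_div]
  unfold isoConst
  rw [hM, Matrix.det_diagonal]

end Vale.Agent.P254U
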