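import Vale.Agent.P254U.FinU
import Vale.Agent.P254U.CovU
import Vale.Agent.P254U.Ball
import Vale.Agent.P254U.ProdU
import Vale.Agent.P254.Fin3

open MeasureTheory Set Vale.Agent.P254
open scoped ENNReal

namespace Vale.Agent.P254U

theorem oneSym_uncond {n : ℕ} {K : Set (Fin n → ℝ)} (hs : OneSymmetric K) : Unconditional K := by
  intro x hx ε hε
  exact hs x hx (Equiv.refl _) ε hε

theorem oneSym_momProp {n : ℕ} (hn : 1 ≤ n) {K : Set (Fin n → ℝ)} (hK : IsBody K)
    (hs : OneSymmetric K) : MomProp K := by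
  unfold MomProp
  have hV : 0 ≤ (volume K).toReal := ENNReal.toReal_nonneg
  have hm : ∀ i, 0 ≤ 4 * ((∫ x in K, |x i|) / (volume K).toReal) := by
    intro i
    have : 0 ≤ ∫ x in K, |x i| := integral_nonneg fun x => abs_nonneg _
    positivity
  have h1 : (∏ i, (4 * ((∫ x in K, |x i|) / (volume K).toReal))) ^ n ≤ (volume K).toReal ^ n := by
    rw [← Finset.prod_pow]
    calc ∏ i, (4 * ((∫ x in K, |x i|) / (volume K).toReal)) ^ n
        ≤ ∏ _i : Fin n, (volume K).toReal :=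
          Finset.prod_le_prod (fun i _ => pow_nonneg (hm i) _)
            fun i _ => first_abs_moment hK hs i
      _ = (volume K).toReal ^ n := by simp
  exact le_of_pow_le_pow_left₀ (by omega) hV h1

/-- the bound `X ≤ ((n+1)/(8(n+2)))^n` behind the main theorem -/
theorem uncond_X {n : ℕ} (hn : 1 ≤ n) {K : Set (Fin n → ℝ)} (hK : IsBody K)
    (hs : Unconditional K) (hm : MomProp K) :
    (∏ i, ((∫ x in K, (x i) ^ 2) / (volume K).toReal)) / (volume K).toReal ^ 2 ≤
      (((n : ℝ) + 1) / (8 * ((n : ℝ) + 2))) ^ n := by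
  obtain ⟨k, rfl⟩ : ∃ k, n = k + 1 := ⟨n - 1, by omega⟩
  have h := body_bound_uncond hK hs hm
  have e1 : (((k : ℝ) + 2) / (8 * ((k : ℝ) + 3))) =
      ((((k + 1 : ℕ) : ℝ) + 1) / (8 * (((k + 1 : ℕ) : ℝ) + 2))) := by
    push_cast
    congr 1
    · ring
    · ring
  rw [e1] at h
  exact h

theorem uncond_X_nonneg {n : ℕ} (K : Set (Fin n → ℝ)) :
    0 ≤ (∏ i, ((∫ x in K, (x i) ^ 2) / (volume K).toReal)) / (volume K).toReal ^ 2 := by
  have h1 : ∀ i, 0 ≤ (∫ x in K, (x i) ^ 2) / (volume K).toReal := fun i =>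
    div_nonneg (integral_nonneg fun x => sq_nonneg _) ENNReal.toReal_nonneg
  exact div_nonneg (Finset.prod_nonneg fun i _ => h1 i) (sq_nonneg _)

theorem main_uncond {n : ℕ} (hn : 1 ≤ n) {K : Set (Fin n → ℝ)} (hK : IsBody K)
    (T : (Fin n → ℝ) ≃ᵃ[ℝ] (Fin n → ℝ)) (hs : Unconditional (T '' K)) (hm : MomProp (T '' K))
    (p : Fin (n + 1) → (Fin n → ℝ)) (hp : AffineIndependent ℝ p) :
    isoConst K ≤ isoConst (convexHull ℝ (Set.range p)) ∧
      (2 ≤ n → isoConst K < isoConst (convexHull ℝ (Set.range p))) := by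
  have hKv : volume K ≠ 0 := (Measure.measure_pos_of_nonempty_interior volume hK.2.2).ne'
  have h1 : isoConst K = isoConst (T '' K) := (isoConst_affine T hK.1 hKv).symm
  obtain ⟨T', hT'⟩ := simplex_image p hp
  have hSv : volume (simplex n) ≠ 0 := by
    rw [simplex_volume]
    simp
  have h2 : isoConst (convexHull ℝ (Set.range p)) = isoConst (simplex n) := by
    rw [← hT']
    exact isoConst_affine T' (simplex_compact _) hSv
  have hB := isBody_image hK T
  rw [h1, h2, isoConst_uncond hs, isoConst_simplex n hn]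
  have h3 := uncond_X hn hB hs hm
  have hX0 := uncond_X_nonneg (T '' K)
  have hexp : 0 < 1 / (2 * (n : ℝ)) := by
    have : (0 : ℝ) < n := by exact_mod_cast hn
    positivity
  constructor
  · exact Real.rpow_le_rpow hX0 (h3.trans (num_real hn)) hexp.le
  · intro hk
    exact Real.rpow_lt_rpow hX0 (h3.trans_lt (num_real_lt hk)) hexp

theorem isoConst_sq_le_uncond {n : ℕ} (hn : 1 ≤ n) {K : Set (Fin n → ℝ)} (hK : IsBody K)
    (T : (Fin n → ℝ) ≃ᵃ[ℝ] (Fin n → ℝ)) (hs : Unconditional (T '' K)) (hm : MomProp (T '' K)) :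
    isoConst K ^ 2 ≤ ((n : ℝ) + 1) / (8 * ((n : ℝ) + 2)) := by
  have hKv : volume K ≠ 0 := (Measure.measure_pos_of_nonempty_interior volume hK.2.2).ne'
  have h1 : isoConst K = isoConst (T '' K) := (isoConst_affine T hK.1 hKv).symm
  have hB := isBody_image hK T
  rw [h1, isoConst_uncond hs]
  have h3 := uncond_X hn hB hs hm
  have hX0 := uncond_X_nonneg (T '' K)
  set X := (∏ i, ((∫ x in T '' K, (x i) ^ 2) / (volume (T '' K)).toReal)) /
    (volume (T '' K)).toReal ^ 2 with hX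
  have hn0 : (0 : ℝ) < n := by exact_mod_cast hn
  set Y := (((n : ℝ) + 1) / (8 * ((n : ℝ) + 2))) with hY
  have hY0 : 0 ≤ Y := by positivity
  have h4 : (X ^ (1 / (2 * (n : ℝ)))) ^ 2 = X ^ (1 / (n : ℝ)) := by
    rw [← Real.rpow_natCast, ← Real.rpow_mul hX0]
    congr 1
    push_cast
    field_simp
  rw [h4]
  calc X ^ (1 / (n : ℝ)) ≤ (Y ^ n) ^ (1 / (n : ℝ)) :=
        Real.rpow_le_rpow hX0 h3 (by positivity)
    _ = Y := by
        rw [← Real.rpow_natCast, ← Real.rpow_mul hY0]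
        have : (n : ℝ) * (1 / (n : ℝ)) = 1 := by
          field_simp
        rw [this, Real.rpow_one]

end Vale.Agent.P254U
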