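import Vale.Agent.P254U.Defs
import Vale.Agent.P074.PL

open MeasureTheory Set
open scoped ENNReal
open Vale.Agent.P254

namespace Vale.Agent.P254U


/-- the section of `s A` at height `t` of the first coordinate -/
private def bw1D {n : ℕ} (A : Set (Fin (n + 1) → ℝ)) (t s : ℝ) : Set (Fin n → ℝ) :=
  {x : Fin n → ℝ | (fun i => s⁻¹ * (Fin.cons t x : Fin (n + 1) → ℝ) i) ∈ A}

private theorem bw1_map {n : ℕ} : Measurable fun r : (ℝ × ℝ) × (Fin n → ℝ) =>
    (fun i => r.1.2⁻¹ * (Fin.cons r.1.1 r.2 : Fin (n + 1) → ℝ) i) := by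
  refine measurable_pi_lambda _ fun i => ?_
  refine (measurable_snd.comp measurable_fst).inv.mul ?_
  refine Fin.cases ?_ (fun j => ?_) i
  · simp only [Fin.cons_zero]
    exact measurable_fst.comp measurable_fst
  · simp only [Fin.cons_succ]
    exact (measurable_pi_apply j).comp measurable_snd

private theorem bw1_meas {n : ℕ} {A : Set (Fin (n + 1) → ℝ)} (hA : MeasurableSet A) :
    Measurable fun q : ℝ × ℝ => volume (bw1D A q.1 q.2) :=
  measurable_measure_prodMk_left (ν := (volume : Measure (Fin n → ℝ))) (bw1_map hA)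

private theorem bw1_measD {n : ℕ} {A : Set (Fin (n + 1) → ℝ)} (hA : MeasurableSet A)
    (t s : ℝ) : MeasurableSet (bw1D A t s) :=
  (bw1_map.comp (measurable_const (a := (t, s)) |>.prodMk measurable_id)) hA

private theorem bw1_conv {n : ℕ} {A : Set (Fin (n + 1) → ℝ)} (hA : Convex ℝ A)
    {a b s u : ℝ} (hs : 0 < s) (hu : 0 < u) {x y : Fin n → ℝ} (hx : x ∈ bw1D A a s)
    (hy : y ∈ bw1D A b u) :
    (1 / 2 : ℝ) • (x + y) ∈ bw1D A ((a + b) / 2) ((s + u) / 2) := by
  have hsu : 0 < s + u := add_pos hs hu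
  have h2 := hA hx hy (show (0 : ℝ) ≤ s / (s + u) by positivity)
    (show (0 : ℝ) ≤ u / (s + u) by positivity) (by field_simp)
  have e : (s / (s + u)) • (fun i => s⁻¹ * (Fin.cons a x : Fin (n + 1) → ℝ) i) +
      (u / (s + u)) • (fun i => u⁻¹ * (Fin.cons b y : Fin (n + 1) → ℝ) i) =
      (fun i => ((s + u) / 2)⁻¹ *
        (Fin.cons ((a + b) / 2) ((1 / 2 : ℝ) • (x + y)) : Fin (n + 1) → ℝ) i) := by
    funext i
    refine Fin.cases ?_ (fun j => ?_) i
    · simp only [Pi.add_apply, Pi.smul_apply, Fin.cons_zero, smul_eq_mul]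
      field_simp
    · simp only [Pi.add_apply, Pi.smul_apply, Fin.cons_succ, smul_eq_mul]
      field_simp
  rw [e] at h2
  exact h2

private theorem bw1_vol {n : ℕ} {A : Set (Fin (n + 1) → ℝ)} (hA : Convex ℝ A)
    (hm : MeasurableSet A) {a b s u : ℝ} (hs : 0 < s) (hu : 0 < u) :
    volume (bw1D A a s) * volume (bw1D A b u) ≤
      volume (bw1D A ((a + b) / 2) ((s + u) / 2)) ^ 2 := by
  have h1 := Vale.Agent.P074.pl_pi n
    (f := (bw1D A a s).indicator 1) (g := (bw1D A b u).indicator 1)
    (h := (bw1D A ((a + b) / 2) ((s + u) / 2)).indicator 1)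
    (measurable_one.indicator (bw1_measD hm a s))
    (measurable_one.indicator (bw1_measD hm b u))
    (measurable_one.indicator (bw1_measD hm _ _)) ?_
  · rw [lintegral_indicator_one (bw1_measD hm a s),
      lintegral_indicator_one (bw1_measD hm b u),
      lintegral_indicator_one (bw1_measD hm _ _)] at h1
    exact h1
  · intro x y
    by_cases hx : x ∈ bw1D A a s
    · by_cases hy : y ∈ bw1D A b u
      · rw [indicator_of_mem hx, indicator_of_mem hy,
          indicator_of_mem (bw1_conv hA hs hu hx hy)]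
        simp
      · rw [indicator_of_notMem hy, mul_zero]
        exact zero_le
    · rw [indicator_of_notMem hx, zero_mul]
      exact zero_le

private theorem bw1_gm {n : ℕ} (A : Set (Fin (n + 1) → ℝ)) (t : ℝ) :
    gm A t = ∫⁻ s, (Ioi (0 : ℝ)).indicator
      (fun s => ENNReal.ofReal (Real.exp (-s)) * volume (bw1D A t s)) s := by
  rw [lintegral_indicator measurableSet_Ioi]
  rfl

private theorem bw1_measE {n : ℕ} {A : Set (Fin (n + 1) → ℝ)} (hA : MeasurableSet A) :
    Measurable fun q : ℝ × ℝ =>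
      ENNReal.ofReal (Real.exp (-q.2)) * volume (bw1D A q.1 q.2) :=
  (ENNReal.measurable_ofReal.comp
    (Real.measurable_exp.comp measurable_snd.neg)).mul (bw1_meas hA)

private theorem bw1_measS {n : ℕ} {A : Set (Fin (n + 1) → ℝ)} (hA : MeasurableSet A) (t : ℝ) :
    Measurable ((Ioi (0 : ℝ)).indicator
      (fun s => ENNReal.ofReal (Real.exp (-s)) * volume (bw1D A t s))) :=
  ((bw1_measE hA).comp (measurable_const (a := t) |>.prodMk measurable_id)).indicator
    measurableSet_Ioi

private theorem bw1_fin {n : ℕ} {A : Set (Fin (n + 1) → ℝ)} (hA : Corner0 A) (t : ℝ) :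
    gm A t ≠ ∞ := by
  obtain ⟨R, hR⟩ := hA.compact.isBounded.subset_closedBall (0 : Fin (n + 1) → ℝ)
  have hsub : ∀ s : ℝ, 0 < s →
      volume (bw1D A t s) ≤ ENNReal.ofReal ((2 * (|R| * s)) ^ n) := by
    intro s hs
    have h1 : bw1D A t s ⊆ Metric.closedBall (0 : Fin n → ℝ) (|R| * s) := by
      intro x hx
      have h1 := hR hx
      rw [mem_closedBall_zero_iff] at h1
      rw [mem_closedBall_zero_iff, pi_norm_le_iff_of_nonneg (by positivity)]
      intro i
      have h2 := norm_le_pi_norm
        (fun i => s⁻¹ * (Fin.cons t x : Fin (n + 1) → ℝ) i) i.succ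
      simp only [Fin.cons_succ] at h2
      have h3 : ‖s⁻¹ * x i‖ ≤ |R| := h2.trans (h1.trans (le_abs_self R))
      rw [norm_mul, norm_inv, Real.norm_of_nonneg hs.le] at h3
      have h4 := mul_le_mul_of_nonneg_left h3 hs.le
      rw [← mul_assoc, mul_inv_cancel₀ hs.ne', one_mul] at h4
      linarith [mul_comm s |R|]
    refine (measure_mono h1).trans ?_
    rw [Real.volume_pi_closedBall _ (by positivity), Fintype.card_fin]
  have hint := Real.GammaIntegral_convergent (s := (n : ℝ) + 1) (by positivity)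
  have hint2 : IntegrableOn (fun s : ℝ => (2 * |R|) ^ n * (Real.exp (-s) * s ^ n))
      (Ioi (0 : ℝ)) := by
    refine Integrable.const_mul ?_ _
    refine hint.congr_fun (fun s _ => ?_) measurableSet_Ioi
    simp
  have hlt : ∫⁻ s in Ioi (0 : ℝ),
      ENNReal.ofReal ((2 * |R|) ^ n * (Real.exp (-s) * s ^ n)) < ∞ :=
    hint2.lintegral_lt_top
  refine ne_top_of_le_ne_top hlt.ne ?_
  refine setLIntegral_mono' measurableSet_Ioi fun s hs => ?_
  have hs0 : (0 : ℝ) < s := hs
  refine (mul_le_mul' le_rfl (hsub s hs0)).trans ?_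
  rw [← ENNReal.ofReal_mul (Real.exp_pos _).le]
  refine ENNReal.ofReal_le_ofReal (le_of_eq ?_)
  rw [← mul_assoc, mul_pow]
  ring

/-- BW1. Log-concavity by `Vale.Agent.P074.pl_pi` in dimension `n + 1` with
`F_t (y) = if 0 < y 0 then ofReal (exp (- y 0)) * indicator A (cons t (tail y) / y 0) else 0`
(convexity of `A`: the midpoint of `(t, x) ∈ s A` and `(t', x') ∈ s' A` is in `((s+s')/2) A`).
Antitone: `Corner0.down`. Finite: `volume {x | s⁻¹ • cons t x ∈ A} ≤ s ^ n * volume (ball)`. -/
theorem gm_LC {n : ℕ} {A : Set (Fin (n + 1) → ℝ)} (hA : Corner0 A) : LC (gm A) := by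
  have hm : MeasurableSet A := hA.compact.isClosed.measurableSet
  refine ⟨?_, fun t _ => bw1_fin hA t, ?_, ?_⟩
  · exact Measurable.lintegral_prod_right' (ν := volume.restrict (Ioi (0 : ℝ))) (bw1_measE hm)
  · intro s t hs hst
    refine setLIntegral_mono' measurableSet_Ioi fun u hu => ?_
    have hu0 : (0 : ℝ) < u := hu
    refine mul_le_mul' le_rfl (measure_mono fun x hx => ?_)
    refine hA.down _ hx _ (fun i => ?_) (fun i => ?_)
    · refine Fin.cases ?_ (fun j => ?_) i
      · simp only [Fin.cons_zero]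
        positivity
      · have := hA.nonneg _ hx j.succ
        simpa using this
    · refine Fin.cases ?_ (fun j => ?_) i
      · simp only [Fin.cons_zero]
        exact mul_le_mul_of_nonneg_left hst (inv_nonneg.2 hu0.le)
      · simp
  · intro a b _ _
    rw [bw1_gm, bw1_gm, bw1_gm]
    refine Vale.Agent.P074.pl1 (bw1_measS hm a) (bw1_measS hm b) (bw1_measS hm _)
      fun s u => ?_
    by_cases hs : 0 < s
    · by_cases hu : 0 < u
      · have hsu : (s + u) / 2 ∈ Ioi (0 : ℝ) := by
          show 0 < (s + u) / 2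
          positivity
        rw [indicator_of_mem (show s ∈ Ioi (0 : ℝ) from hs),
          indicator_of_mem (show u ∈ Ioi (0 : ℝ) from hu), indicator_of_mem hsu]
        have h1 := bw1_vol hA.convex hm (a := a) (b := b) hs hu
        have h2 : ENNReal.ofReal (Real.exp (-s)) * ENNReal.ofReal (Real.exp (-u)) =
            ENNReal.ofReal (Real.exp (-((s + u) / 2))) ^ 2 := by
          rw [← ENNReal.ofReal_mul (Real.exp_pos _).le, ← Real.exp_add,
            ← ENNReal.ofReal_pow (Real.exp_pos _).le, ← Real.exp_nat_mul]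
          congr 2
          push_cast
          ring
        calc ENNReal.ofReal (Real.exp (-s)) * volume (bw1D A a s) *
            (ENNReal.ofReal (Real.exp (-u)) * volume (bw1D A b u))
            = (ENNReal.ofReal (Real.exp (-s)) * ENNReal.ofReal (Real.exp (-u))) *
              (volume (bw1D A a s) * volume (bw1D A b u)) := by ring
          _ ≤ ENNReal.ofReal (Real.exp (-((s + u) / 2))) ^ 2 *
              volume (bw1D A ((a + b) / 2) ((s + u) / 2)) ^ 2 := by
              rw [h2]
              exact mul_le_mul' le_rfl h1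
          _ = _ := by rw [mul_pow]
      · rw [indicator_of_notMem (show u ∉ Ioi (0 : ℝ) from hu), mul_zero]
        exact zero_le
    · rw [indicator_of_notMem (show s ∉ Ioi (0 : ℝ) from hs), zero_mul]
      exact zero_le

end Vale.Agent.P254U
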