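import Vale.Agent.P254U.Bw3

open MeasureTheory Set Vale.Agent.P254
open scoped ENNReal

namespace Vale.Agent.P254U

/-- BWI. Apply `berwald` to the set `A` with the coordinates `0` and `i` exchanged
(measure preserving). -/
theorem berwald_i {n : ℕ} {A : Set (Fin (n + 1) → ℝ)} (hA : Corner0 A) (i : Fin (n + 1)) :
    ((n : ℝ≥0∞) + 3) * (volume A * ∫⁻ x in A, ENNReal.ofReal (x i) ^ 2) ≤
      2 * ((n : ℝ≥0∞) + 2) * (∫⁻ x in A, ENNReal.ofReal (x i)) ^ 2 := by
  set σ : Equiv.Perm (Fin (n + 1)) := Equiv.swap 0 i with hσ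
  have hσσ : ∀ k, σ (σ k) = k := fun k => Equiv.swap_apply_self _ _ _
  let e : (Fin (n + 1) → ℝ) ≃ᵐ (Fin (n + 1) → ℝ) :=
    MeasurableEquiv.piCongrLeft (fun _ : Fin (n + 1) => ℝ) σ.symm
  have he : ∀ x : Fin (n + 1) → ℝ, e x = fun k => x (σ k) := by
    intro x
    funext k
    have h := MeasurableEquiv.piCongrLeft_apply_apply σ.symm (β := fun _ : Fin (n + 1) => ℝ) x (σ k)
    simpa using h
  have hm : MeasurePreserving e volume volume :=
    volume_measurePreserving_piCongrLeft (fun _ : Fin (n + 1) => ℝ) σ.symm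
  have hAm : MeasurableSet A := hA.compact.isClosed.measurableSet
  have hA' : Corner0 (e ⁻¹' A) := by
    have hmem : ∀ x, x ∈ e ⁻¹' A ↔ (fun k => x (σ k)) ∈ A := fun x => by
      rw [mem_preimage, he]
    refine ⟨?_, ?_, ?_, ?_⟩
    · have himg : e ⁻¹' A = (fun x : Fin (n + 1) → ℝ => fun k => x (σ k)) '' A := by
        ext x
        rw [hmem]
        constructor
        · intro hx
          exact ⟨_, hx, by funext k; simp only [hσσ]⟩
        · rintro ⟨y, hy, rfl⟩
          simpa only [hσσ] using hy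
      rw [himg]
      exact hA.compact.image (by fun_prop)
    · intro x hx y hy a b ha hb hab
      rw [hmem] at hx hy ⊢
      exact hA.convex hx hy ha hb hab
    · intro x hx k
      rw [hmem] at hx
      have := hA.nonneg _ hx (σ k)
      simpa only [hσσ] using this
    · intro x hx y hy0 hyx
      rw [hmem] at hx ⊢
      exact hA.down _ hx _ (fun k => hy0 _) (fun k => hyx _)
  have hvol : volume (e ⁻¹' A) = volume A := hm.measure_preimage hAm.nullMeasurableSet
  have hint : ∀ f : ℝ → ℝ≥0∞, Measurable f →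
      ∫⁻ x in e ⁻¹' A, f (x 0) = ∫⁻ x in A, f (x i) := by
    intro f hf
    have h1 := hm.setLIntegral_comp_preimage hAm (f := fun x => f (x i))
      (hf.comp (measurable_pi_apply i))
    rw [← h1]
    refine lintegral_congr fun x => ?_
    rw [he]
    simp only [hσ, Equiv.swap_apply_right]
  have h2 := berwald hA'
  rw [hvol, hint (fun t => ENNReal.ofReal t ^ 2) (by fun_prop),
    hint (fun t => ENNReal.ofReal t) (by fun_prop)] at h2
  exact h2

end Vale.Agent.P254U
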