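import Vale.Agent.P254U.Defs

open MeasureTheory Set Vale.Agent.P254
open scoped ENNReal

namespace Vale.Agent.P254U

theorem CH_aux {x y u v : ℝ≥0∞} (h1 : y ≤ x) (h2 : v ≤ u) :
    x * v + u * y ≤ x * u + y * v := by
  obtain ⟨d, rfl⟩ := exists_add_of_le h1
  obtain ⟨e, rfl⟩ := exists_add_of_le h2
  calc (y + d) * v + (v + e) * y ≤ ((y + d) * v + (v + e) * y) + d * e := le_self_add
    _ = (y + d) * (v + e) + y * v := by ring

theorem CH_pt {a b g : ℝ → ℝ≥0∞}
    (ha' : ∀ s t, 0 < s → s ≤ t → a t ≤ a s) (hb' : ∀ s t, 0 < s → s ≤ t → b t ≤ b s)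
    {s t : ℝ} (hs : 0 < s) (ht : 0 < t) :
    (a s * g s) * (b t * g t) + (b s * g s) * (a t * g t) ≤
      (a s * b s * g s) * g t + g s * (a t * b t * g t) := by
  have key : a s * b t + b s * a t ≤ a s * b s + a t * b t := by
    rcases le_total s t with h | h
    · exact CH_aux (ha' s t hs h) (hb' s t hs h)
    · have := CH_aux (ha' t s ht h) (hb' t s ht h)
      calc a s * b t + b s * a t = a t * b s + b t * a s := by ring
        _ ≤ a t * b t + a s * b s := this
        _ = a s * b s + a t * b t := by ring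
  calc (a s * g s) * (b t * g t) + (b s * g s) * (a t * g t)
      = (a s * b t + b s * a t) * (g s * g t) := by ring
    _ ≤ (a s * b s + a t * b t) * (g s * g t) := by gcongr
    _ = (a s * b s * g s) * g t + g s * (a t * b t * g t) := by ring

/-- CH1. Chebyshev: for all `s, t`: `a s b t + a t b s ≤ a s b s + a t b t`
(both nonincreasing; write `a s = a t + d` for `s ≤ t`), integrate against `g s g t`. -/
theorem cheb_two {g a b : ℝ → ℝ≥0∞} (hg : Measurable g) (ha : Measurable a) (hb : Measurable b)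
    (ha' : ∀ s t, 0 < s → s ≤ t → a t ≤ a s) (hb' : ∀ s t, 0 < s → s ≤ t → b t ≤ b s) :
    (∫⁻ t in Ioi (0 : ℝ), a t * g t) * (∫⁻ t in Ioi (0 : ℝ), b t * g t) ≤
      (∫⁻ t in Ioi (0 : ℝ), g t) * ∫⁻ t in Ioi (0 : ℝ), a t * b t * g t := by
  set μ := (volume : Measure ℝ).restrict (Ioi 0) with hμ
  set A := ∫⁻ t, a t * g t ∂μ with hA
  set B := ∫⁻ t, b t * g t ∂μ with hB
  set G := ∫⁻ t, g t ∂μ with hG
  set P := ∫⁻ t, a t * b t * g t ∂μ with hP
  have hag : Measurable fun t => a t * g t := ha.mul hg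
  have hbg : Measurable fun t => b t * g t := hb.mul hg
  have habg : Measurable fun t => a t * b t * g t := (ha.mul hb).mul hg
  have L : ∫⁻ s, ∫⁻ t, ((a s * g s) * (b t * g t) + (b s * g s) * (a t * g t)) ∂μ ∂μ
      = A * B + B * A := by
    have h1 : ∀ s, ∫⁻ t, ((a s * g s) * (b t * g t) + (b s * g s) * (a t * g t)) ∂μ
        = (a s * g s) * B + (b s * g s) * A := by
      intro s
      rw [lintegral_add_left (hbg.const_mul _), lintegral_const_mul _ hbg,
        lintegral_const_mul _ hag]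
    simp_rw [h1]
    rw [lintegral_add_left (hag.mul_const _), lintegral_mul_const _ hag,
      lintegral_mul_const _ hbg]
  have R : ∫⁻ s, ∫⁻ t, ((a s * b s * g s) * g t + g s * (a t * b t * g t)) ∂μ ∂μ
      = P * G + G * P := by
    have h1 : ∀ s, ∫⁻ t, ((a s * b s * g s) * g t + g s * (a t * b t * g t)) ∂μ
        = (a s * b s * g s) * G + g s * P := by
      intro s
      rw [lintegral_add_left (hg.const_mul _), lintegral_const_mul _ hg,
        lintegral_const_mul _ habg]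
    simp_rw [h1]
    rw [lintegral_add_left (habg.mul_const _), lintegral_mul_const _ habg,
      lintegral_mul_const _ hg]
  have hle : A * B + B * A ≤ P * G + G * P := by
    rw [← L, ← R]
    refine lintegral_mono_ae ?_
    filter_upwards [ae_restrict_mem (measurableSet_Ioi : MeasurableSet (Ioi (0 : ℝ)))] with s hs
    refine lintegral_mono_ae ?_
    filter_upwards [ae_restrict_mem (measurableSet_Ioi : MeasurableSet (Ioi (0 : ℝ)))] with t ht
    exact CH_pt ha' hb' hs ht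
  have h2 : 2 * (A * B) ≤ 2 * (G * P) := by
    calc 2 * (A * B) = A * B + B * A := by ring
      _ ≤ P * G + G * P := hle
      _ = 2 * (G * P) := by ring
  exact (ENNReal.mul_le_mul_iff_right (by norm_num) (by norm_num)).1 h2

/-- CH2. Induction on `m` with `cheb_two`. -/
theorem cheb {m : ℕ} {g : ℝ → ℝ≥0∞} (hg : Measurable g) (a : Fin m → ℝ → ℝ≥0∞)
    (ha : ∀ i, Measurable (a i)) (ha' : ∀ i s t, 0 < s → s ≤ t → a i t ≤ a i s) :
    (∫⁻ t in Ioi (0 : ℝ), g t) * ∏ i, ∫⁻ t in Ioi (0 : ℝ), a i t * g t ≤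
      (∫⁻ t in Ioi (0 : ℝ), g t) ^ m * ∫⁻ t in Ioi (0 : ℝ), (∏ i, a i t) * g t := by
  induction m with
  | zero => simp
  | succ m ih =>
    have h1 := ih (fun i => a i.succ) (fun i => ha _) (fun i => ha' _)
    have hbm : Measurable fun t => ∏ i : Fin m, a i.succ t :=
      Finset.measurable_prod _ (fun i _ => ha i.succ)
    have h2 := cheb_two hg (ha 0) hbm (ha' 0)
      (fun s t hs hst => Finset.prod_le_prod' (fun i _ => ha' i.succ s t hs hst))
    rw [Fin.prod_univ_succ]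
    calc (∫⁻ t in Ioi (0 : ℝ), g t) * ((∫⁻ t in Ioi (0 : ℝ), a 0 t * g t) *
          ∏ i : Fin m, ∫⁻ t in Ioi (0 : ℝ), a i.succ t * g t)
        = (∫⁻ t in Ioi (0 : ℝ), a 0 t * g t) * ((∫⁻ t in Ioi (0 : ℝ), g t) *
          ∏ i : Fin m, ∫⁻ t in Ioi (0 : ℝ), a i.succ t * g t) := by ring
      _ ≤ (∫⁻ t in Ioi (0 : ℝ), a 0 t * g t) * ((∫⁻ t in Ioi (0 : ℝ), g t) ^ m *
          ∫⁻ t in Ioi (0 : ℝ), (∏ i : Fin m, a i.succ t) * g t) := by gcongr
      _ = (∫⁻ t in Ioi (0 : ℝ), g t) ^ m * ((∫⁻ t in Ioi (0 : ℝ), a 0 t * g t) *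
          ∫⁻ t in Ioi (0 : ℝ), (∏ i : Fin m, a i.succ t) * g t) := by ring
      _ ≤ (∫⁻ t in Ioi (0 : ℝ), g t) ^ m * ((∫⁻ t in Ioi (0 : ℝ), g t) *
          ∫⁻ t in Ioi (0 : ℝ), a 0 t * (∏ i : Fin m, a i.succ t) * g t) := by gcongr
      _ = (∫⁻ t in Ioi (0 : ℝ), g t) ^ (m + 1) *
          ∫⁻ t in Ioi (0 : ℝ), (∏ i, a i t) * g t := by
        simp_rw [Fin.prod_univ_succ]
        rw [pow_succ, mul_assoc]

end Vale.Agent.P254U
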