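import Vale.Agent.P254.Defs

open MeasureTheory Set Vale.Agent.P254
open scoped ENNReal

namespace Vale.Agent.P254U

/-- compact convex order ideal of the positive orthant -/
structure Corner0 {n : ℕ} (A : Set (Fin n → ℝ)) : Prop where
  compact : IsCompact A
  convex : Convex ℝ A
  nonneg : ∀ x ∈ A, ∀ i, 0 ≤ x i
  down : ∀ x ∈ A, ∀ y : Fin n → ℝ, (∀ i, 0 ≤ y i) → (∀ i, y i ≤ x i) → y ∈ A

/-- invariant under sign changes -/
def Unconditional {n : ℕ} (K : Set (Fin n → ℝ)) : Prop :=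
  ∀ x ∈ K, ∀ ε : Fin n → ℝ, (∀ i, ε i = 1 ∨ ε i = -1) → (fun i => ε i * x i) ∈ K

/-- `|K| ≥ ∏ (4 E|x_i|)`, `x` uniform in `K` -/
def MomProp {n : ℕ} (K : Set (Fin n → ℝ)) : Prop :=
  ∏ i, (4 * ((∫ x in K, |x i|) / (volume K).toReal)) ≤ (volume K).toReal

/-- a Young function: convex, nondecreasing, zero at zero, unbounded -/
structure Young (φ : ℝ → ℝ) : Prop where
  convex : ConvexOn ℝ (Ici 0) φ
  mono : MonotoneOn φ (Ici 0)
  zero : φ 0 = 0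
  top : Filter.Tendsto φ Filter.atTop Filter.atTop

/-- the corner `{x ≥ 0 : ∑ φ_i (x_i) ≤ s}` -/
def orl {n : ℕ} (φ : Fin n → ℝ → ℝ) (s : ℝ) : Set (Fin n → ℝ) :=
  {x | (∀ i, 0 ≤ x i) ∧ ∑ i, φ i (x i) ≤ s}

/-- the generalized Orlicz ball `{x : ∑ φ_i (|x_i|) ≤ 1}` -/
def orlBall {n : ℕ} (φ : Fin n → ℝ → ℝ) : Set (Fin n → ℝ) := {x | ∑ i, φ i |x i| ≤ 1}

/-- volume of the Orlicz corner -/
noncomputable def ov {n : ℕ} (φ : Fin n → ℝ → ℝ) (s : ℝ) : ℝ≥0∞ := volume (orl φ s)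

/-- the product of two sets -/
def prodSet {m n : ℕ} (K : Set (Fin m → ℝ)) (L : Set (Fin n → ℝ)) : Set (Fin (m + n) → ℝ) :=
  {x | (fun i => x (Fin.castAdd n i)) ∈ K ∧ (fun j => x (Fin.natAdd m j)) ∈ L}

end Vale.Agent.P254U
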