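import Vale.Agent.P254U.Bwi
import Vale.Agent.P254U.Body

open MeasureTheory Set Vale.Agent.P254
open scoped ENNReal

namespace Vale.Agent.P254U

/-- the arithmetic of `body_bound_uncond` -/
theorem FU_arith {n : ℕ} {v : ℝ} {m q : Fin (n + 1) → ℝ} (hv : 0 < v) (hm : ∀ i, 0 ≤ m i)
    (hq : ∀ i, 0 ≤ q i)
    (h1 : ∏ i, (4 * ((2 ^ (n + 1) * m i) / (2 ^ (n + 1) * v))) ≤ 2 ^ (n + 1) * v)
    (h2 : ∀ i, ((n : ℝ) + 3) * (v * q i) ≤ 2 * ((n : ℝ) + 2) * m i ^ 2) :
    (∏ i, ((2 ^ (n + 1) * q i) / (2 ^ (n + 1) * v))) / (2 ^ (n + 1) * v) ^ 2 ≤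
      (((n : ℝ) + 2) / (8 * ((n : ℝ) + 3))) ^ (n + 1) := by
  have h4 : ∀ a : ℝ, (2 ^ (n + 1) * a) / (2 ^ (n + 1) * v) = a / v := fun a => by
    rw [mul_div_mul_left _ _ (by positivity)]
  simp only [h4] at h1 ⊢
  have h3 : ∀ i, q i / v ≤ 2 * ((n : ℝ) + 2) / ((n : ℝ) + 3) * (m i / v) ^ 2 := by
    intro i
    rw [div_pow, div_mul_div_comm, div_le_div_iff₀ hv (by positivity)]
    nlinarith [mul_le_mul_of_nonneg_right (h2 i) hv.le]
  have h5 : ∏ i, q i / v ≤ ∏ i, (2 * ((n : ℝ) + 2) / ((n : ℝ) + 3) * (m i / v) ^ 2) :=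
    Finset.prod_le_prod (fun i _ => div_nonneg (hq i) hv.le) fun i _ => h3 i
  rw [Finset.prod_mul_distrib, Finset.prod_const, Finset.card_univ, Fintype.card_fin,
    Finset.prod_pow] at h5
  rw [Finset.prod_mul_distrib, Finset.prod_const, Finset.card_univ, Fintype.card_fin] at h1
  set P := ∏ i, m i / v with hP
  have hP0 : 0 ≤ P := Finset.prod_nonneg fun i _ => div_nonneg (hm i) hv.le
  have h6 : P ≤ v / 2 ^ (n + 1) := by
    rw [le_div_iff₀ (by positivity)]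
    have e : (4 : ℝ) ^ (n + 1) = 2 ^ (n + 1) * 2 ^ (n + 1) := by
      rw [← mul_pow]
      norm_num
    rw [e, mul_assoc] at h1
    have := le_of_mul_le_mul_left h1 (by positivity)
    linarith
  have h7 : P ^ 2 ≤ (v / 2 ^ (n + 1)) ^ 2 := pow_le_pow_left₀ hP0 h6 2
  have h8 := h5.trans (mul_le_mul_of_nonneg_left h7
    (show (0 : ℝ) ≤ (2 * ((n : ℝ) + 2) / ((n : ℝ) + 3)) ^ (n + 1) by positivity))
  rw [div_le_iff₀ (by positivity)]
  refine h8.trans (le_of_eq ?_)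
  have e4 : (2 * ((n : ℝ) + 2) / ((n : ℝ) + 3)) = ((n : ℝ) + 2) / (8 * ((n : ℝ) + 3)) * 16 := by
    field_simp
    ring
  rw [e4, mul_pow]
  have e5 : (16 : ℝ) ^ (n + 1) = (2 ^ (n + 1)) ^ 4 := by
    rw [← pow_mul, mul_comm (n + 1) 4, pow_mul]
    norm_num
  rw [e5]
  field_simp

/-- FU1. With `A = pos K`, `V = volume A`, `M_i = ∫_A x_i`, `Q_i = ∫_A x_i^2` (reals):
`volume K = 2^(n+1) V`, `∫_K |x_i| = 2^(n+1) M_i`, `∫_K x_i^2 = 2^(n+1) Q_i`; `MomProp` says
`∏ (4 M_i / V) ≤ 2^(n+1) V`; `berwald_i` says `Q_i / V ≤ 2 (n+2)/(n+3) (M_i / V)^2`. -/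
theorem body_bound_uncond {n : ℕ} {K : Set (Fin (n + 1) → ℝ)} (hK : IsBody K)
    (hs : Unconditional K) (hm : MomProp K) :
    (∏ i, ((∫ x in K, (x i) ^ 2) / (volume K).toReal)) / (volume K).toReal ^ 2 ≤
      (((n : ℝ) + 2) / (8 * ((n : ℝ) + 3))) ^ (n + 1) := by
  have hKm : MeasurableSet K := hK.1.isClosed.measurableSet
  have hA := pos_corner0 hK hs
  set V := volume (pos K) with hV
  have hvol : volume K = 2 ^ (n + 1) * V := by
    have := orthant0 hKm hs (f := fun _ => 1) measurable_const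
    simpa using this
  have hKfin : volume K ≠ ∞ := hK.1.measure_lt_top.ne
  have hKpos : volume K ≠ 0 := (Measure.measure_pos_of_nonempty_interior volume hK.2.2).ne'
  have hVfin : V ≠ ∞ := by
    intro h
    rw [hvol, h] at hKfin
    simp at hKfin
  have hVpos : V ≠ 0 := by
    intro h
    rw [hvol, h] at hKpos
    simp at hKpos
  have hMi : ∀ i, ∫⁻ x in K, ENNReal.ofReal |x i| =
      2 ^ (n + 1) * ∫⁻ x in pos K, ENNReal.ofReal (x i) := fun i =>
    orthant0 hKm hs (f := fun x => ENNReal.ofReal (x i)) (by fun_prop)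
  have hQi : ∀ i, ∫⁻ x in K, ENNReal.ofReal ((x i) ^ 2) =
      2 ^ (n + 1) * ∫⁻ x in pos K, ENNReal.ofReal (x i) ^ 2 := by
    intro i
    have := orthant0 hKm hs (f := fun x => ENNReal.ofReal (x i) ^ 2) (by fun_prop)
    rw [← this]
    refine lintegral_congr fun x => ?_
    rw [← ENNReal.ofReal_pow (abs_nonneg _), sq_abs]
  have h2n : ((2 : ℝ≥0∞) ^ (n + 1)) ≠ 0 := by positivity
  have hMfin : ∀ i, ∫⁻ x in pos K, ENNReal.ofReal (x i) ≠ ∞ := by
    intro i h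
    have hcont : Continuous fun x : Fin (n + 1) → ℝ => |x i| := by fun_prop
    have h3 := (hcont.continuousOn.integrableOn_compact hK.1 (μ := volume)).lintegral_lt_top
    rw [hMi i, h, ENNReal.mul_top h2n] at h3
    exact lt_irrefl _ h3
  have hintM : ∀ i, ∫ x in K, |x i| =
      2 ^ (n + 1) * (∫⁻ x in pos K, ENNReal.ofReal (x i)).toReal := by
    intro i
    have hcont : Continuous fun x : Fin (n + 1) → ℝ => |x i| := by fun_prop
    rw [integral_eq_lintegral_of_nonneg_ae (Filter.Eventually.of_forall fun x => abs_nonneg _)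
      hcont.aestronglyMeasurable, hMi i, ENNReal.toReal_mul]
    simp
  have hintQ : ∀ i, ∫ x in K, (x i) ^ 2 =
      2 ^ (n + 1) * (∫⁻ x in pos K, ENNReal.ofReal (x i) ^ 2).toReal := by
    intro i
    have hcont : Continuous fun x : Fin (n + 1) → ℝ => (x i) ^ 2 := by fun_prop
    rw [integral_eq_lintegral_of_nonneg_ae (Filter.Eventually.of_forall fun x => sq_nonneg _)
      hcont.aestronglyMeasurable, hQi i, ENNReal.toReal_mul]
    simp
  have hvolr : (volume K).toReal = 2 ^ (n + 1) * V.toReal := by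
    rw [hvol, ENNReal.toReal_mul]
    simp
  unfold MomProp at hm
  simp only [hintM, hvolr] at hm
  simp only [hintQ, hvolr]
  refine FU_arith (ENNReal.toReal_pos hVpos hVfin)
    (m := fun i => (∫⁻ x in pos K, ENNReal.ofReal (x i)).toReal)
    (q := fun i => (∫⁻ x in pos K, ENNReal.ofReal (x i) ^ 2).toReal)
    (fun i => ENNReal.toReal_nonneg) (fun i => ENNReal.toReal_nonneg) hm fun i => ?_
  have h3 := ENNReal.toReal_mono (ENNReal.mul_ne_top (ENNReal.mul_ne_top (by norm_num)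
    (ENNReal.add_ne_top.mpr ⟨ENNReal.natCast_ne_top n, by norm_num⟩))
    (ENNReal.pow_ne_top (hMfin i))) (berwald_i hA i)
  have e1 : ((n : ℝ≥0∞) + 3).toReal = (n : ℝ) + 3 := by
    rw [ENNReal.toReal_add (ENNReal.natCast_ne_top n) (by norm_num)]
    simp
  have e2 : ((n : ℝ≥0∞) + 2).toReal = (n : ℝ) + 2 := by
    rw [ENNReal.toReal_add (ENNReal.natCast_ne_top n) (by norm_num)]
    simp
  rw [ENNReal.toReal_mul, ENNReal.toReal_mul, ENNReal.toReal_mul, ENNReal.toReal_mul,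
    ENNReal.toReal_pow, e1, e2] at h3
  simpa using h3

end Vale.Agent.P254U
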