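import Vale.Agent.P254U.Defs

open MeasureTheory Set Vale.Agent.P254
open scoped ENNReal

namespace Vale.Agent.P254U

/-- continuity of a Young function, extended by `0` to the negative axis -/
theorem oc_cont {ψ : ℝ → ℝ} (h : Young ψ) : Continuous fun x : ℝ => ψ (max x 0) := by
  have him : (fun x : ℝ => max x 0) '' univ = Ici 0 := by
    ext y
    constructor
    · rintro ⟨x, _, rfl⟩
      exact mem_Ici.2 (le_max_right _ _)
    · intro hy
      exact ⟨y, mem_univ _, max_eq_left (mem_Ici.1 hy)⟩
  have hmax : ConvexOn ℝ univ (fun x : ℝ => max x 0) :=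
    (convexOn_id convex_univ).sup (convexOn_const 0 convex_univ)
  have h1 : ConvexOn ℝ univ (ψ ∘ fun x : ℝ => max x 0) := by
    refine ConvexOn.comp ?_ hmax ?_
    · rw [him]
      exact h.convex
    · rw [him]
      exact h.mono
  exact h1.locallyLipschitz.continuous

/-- OC1. A Young function is continuous on `[0, ∞)` (convex on `[0, ∞)`, so continuous inside, and
`0 ≤ φ x ≤ x φ 1` near zero); each `φ_i ≥ 0`, so `orl φ s` is bounded. -/
theorem orl_corner {n : ℕ} {φ : Fin n → ℝ → ℝ} (hφ : ∀ i, Young (φ i)) (s : ℝ) :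
    Corner0 (orl φ s) := by
  have hnn : ∀ i x, 0 ≤ x → 0 ≤ φ i x := by
    intro i x hx
    have h1 := (hφ i).mono (a := 0) (b := x) (mem_Ici.2 le_rfl) (mem_Ici.2 hx) hx
    rwa [(hφ i).zero] at h1
  have hle : ∀ x ∈ orl φ s, ∀ i, φ i (x i) ≤ s := by
    intro x hx i
    exact (Finset.single_le_sum (f := fun i => φ i (x i)) (fun j _ => hnn j _ (hx.1 j))
      (Finset.mem_univ i)).trans hx.2
  refine ⟨?_, ?_, fun x hx => hx.1, ?_⟩
  · have hcl : IsClosed (orl φ s) := by
      have e : orl φ s = {x | ∀ i, 0 ≤ x i} ∩ {x | ∑ i, φ i (max (x i) 0) ≤ s} := by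
        ext x
        constructor
        · intro hx
          refine ⟨hx.1, ?_⟩
          show ∑ i, φ i (max (x i) 0) ≤ s
          have h1 : ∀ i, max (x i) 0 = x i := fun i => max_eq_left (hx.1 i)
          simp only [h1]
          exact hx.2
        · rintro ⟨h1, h2⟩
          refine ⟨h1, ?_⟩
          have h3 : ∀ i, max (x i) 0 = x i := fun i => max_eq_left (h1 i)
          have h4 : ∑ i, φ i (max (x i) 0) ≤ s := h2
          simp only [h3] at h4
          exact h4
      rw [e]
      refine IsClosed.inter ?_ ?_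
      · have : {x : Fin n → ℝ | ∀ i, 0 ≤ x i} = ⋂ i, {x | 0 ≤ x i} := by
          ext x
          simp
        rw [this]
        exact isClosed_iInter fun i => isClosed_le continuous_const (continuous_apply i)
      · refine isClosed_le (continuous_finsetSum _ fun i _ => ?_) continuous_const
        exact (oc_cont (hφ i)).comp (continuous_apply i)
    have hM : ∀ i, ∃ M : ℝ, ∀ x, M ≤ x → s < φ i x := by
      intro i
      have h1 := (hφ i).top.eventually (Filter.eventually_gt_atTop s)
      rw [Filter.eventually_atTop] at h1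
      exact h1
    choose M hM using hM
    have hsub : orl φ s ⊆ Set.pi univ fun i => Icc 0 (M i) := by
      intro x hx i _
      refine ⟨hx.1 i, ?_⟩
      by_contra hc
      exact absurd (hM i (x i) (not_le.1 hc).le) (not_lt.2 (hle x hx i))
    exact IsCompact.of_isClosed_subset (isCompact_univ_pi fun i => isCompact_Icc) hcl hsub
  · intro x hx y hy a b ha hb hab
    refine ⟨fun i => add_nonneg (mul_nonneg ha (hx.1 i)) (mul_nonneg hb (hy.1 i)), ?_⟩
    calc ∑ i, φ i ((a • x + b • y) i) ≤ ∑ i, (a * φ i (x i) + b * φ i (y i)) :=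
          Finset.sum_le_sum fun i _ =>
            (hφ i).convex.2 (mem_Ici.2 (hx.1 i)) (mem_Ici.2 (hy.1 i)) ha hb hab
      _ = a * ∑ i, φ i (x i) + b * ∑ i, φ i (y i) := by
          rw [Finset.sum_add_distrib, Finset.mul_sum, Finset.mul_sum]
      _ ≤ a * s + b * s := add_le_add (mul_le_mul_of_nonneg_left hx.2 ha)
          (mul_le_mul_of_nonneg_left hy.2 hb)
      _ = s := by rw [← add_mul, hab, one_mul]
  · intro x hx y hy hyx
    refine ⟨hy, (Finset.sum_le_sum fun i _ => ?_).trans hx.2⟩
    exact (hφ i).mono (mem_Ici.2 (hy i)) (mem_Ici.2 (hx.1 i)) (hyx i)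

/-- OC2 -/
theorem sect_orl {n : ℕ} (φ : Fin (n + 1) → ℝ → ℝ) (s : ℝ) {t : ℝ} (ht : 0 ≤ t) :
    sect (orl φ s) t = orl (fun j : Fin n => φ j.succ) (s - φ 0 t) := by
  ext y
  constructor
  · intro hy
    have hy' : (Fin.cons t y : Fin (n + 1) → ℝ) ∈ orl φ s := hy
    refine ⟨fun j => ?_, ?_⟩
    · have := hy'.1 j.succ
      simpa using this
    · have := hy'.2
      rw [Fin.sum_univ_succ] at this
      simp only [Fin.cons_zero, Fin.cons_succ] at this
      linarith
  · rintro ⟨h1, h2⟩
    show (Fin.cons t y : Fin (n + 1) → ℝ) ∈ orl φ s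
    refine ⟨fun i => ?_, ?_⟩
    · refine Fin.cases ?_ (fun j => ?_) i
      · simpa using ht
      · simpa using h1 j
    · rw [Fin.sum_univ_succ]
      simp only [Fin.cons_zero, Fin.cons_succ]
      linarith

end Vale.Agent.P254U
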