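import Vale.Agent.P254U.OrlC

open MeasureTheory Set Vale.Agent.P254
open scoped ENNReal

namespace Vale.Agent.P254U

/-- OD. Tonelli through `MeasurableEquiv.piFinSuccAbove (fun _ => ℝ) i`
(see P254U/Sc3.lean for `i = 0`). -/
theorem lintegral_coord {n : ℕ} {φ : Fin (n + 1) → ℝ → ℝ} (hφ : ∀ i, Young (φ i)) (s : ℝ)
    (i : Fin (n + 1)) {f : ℝ → ℝ≥0∞} (hf : Measurable f) :
    ∫⁻ x in orl φ s, f (x i) =
      ∫⁻ t in Ioi (0 : ℝ), f t * ov (fun j : Fin n => φ (i.succAbove j)) (s - φ i t) := by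
  have hAm : MeasurableSet (orl φ s) := (orl_corner hφ s).compact.isClosed.measurableSet
  have hBm : ∀ r, MeasurableSet (orl (fun j : Fin n => φ (i.succAbove j)) r) := fun r =>
    (orl_corner (fun j => hφ (i.succAbove j)) r).compact.isClosed.measurableSet
  let F : (Fin (n + 1) → ℝ) → ℝ≥0∞ := (orl φ s).indicator (fun x => f (x i))
  have hF : Measurable F := (hf.comp (measurable_pi_apply i)).indicator hAm
  let e := MeasurableEquiv.piFinSuccAbove (fun _ : Fin (n + 1) => ℝ) i
  have he : MeasurePreserving e := volume_preserving_piFinSuccAbove (fun _ : Fin (n + 1) => ℝ) i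
  have h1 : ∫⁻ x, F x = ∫⁻ p : ℝ × (Fin n → ℝ), F (e.symm p) := by
    have h2 := (he.symm e).lintegral_comp_emb e.symm.measurableEmbedding F
    exact h2.symm
  have h2 : ∫⁻ p : ℝ × (Fin n → ℝ), F (e.symm p) =
      ∫⁻ t : ℝ, ∫⁻ y : Fin n → ℝ, F (e.symm (t, y)) := by
    have hm : Measurable fun p : ℝ × (Fin n → ℝ) => F (e.symm p) := hF.comp e.symm.measurable
    exact lintegral_prod _ hm.aemeasurable
  have hs1 : ∀ (t : ℝ) (y : Fin n → ℝ), e.symm (t, y) i = t := by
    intro t y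
    change (Fin.insertNth (α := fun _ : Fin (n + 1) => ℝ) i t y) i = _
    simp
  have hs2 : ∀ (t : ℝ) (y : Fin n → ℝ) (j : Fin n), e.symm (t, y) (i.succAbove j) = y j := by
    intro t y j
    change (Fin.insertNth (α := fun _ : Fin (n + 1) => ℝ) i t y) (i.succAbove j) = _
    simp
  have hmem : ∀ (t : ℝ) (y : Fin n → ℝ), e.symm (t, y) ∈ orl φ s ↔
      (0 ≤ t ∧ y ∈ orl (fun j : Fin n => φ (i.succAbove j)) (s - φ i t)) := by
    intro t y
    unfold orl
    simp only [Set.mem_ofPred_eq, Fin.sum_univ_succAbove _ i, hs1, hs2]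
    rw [Fin.forall_iff_succAbove i]
    simp only [hs1, hs2]
    constructor
    · rintro ⟨⟨h1, h2⟩, h3⟩
      exact ⟨h1, h2, by linarith⟩
    · rintro ⟨h1, h2, h3⟩
      exact ⟨⟨h1, h2⟩, by linarith⟩
  have h3 : ∀ t : ℝ, ∫⁻ y : Fin n → ℝ, F (e.symm (t, y)) =
      (Ici (0 : ℝ)).indicator (fun t => f t *
        ov (fun j : Fin n => φ (i.succAbove j)) (s - φ i t)) t := by
    intro t
    by_cases ht : 0 ≤ t
    · rw [Set.indicator_of_mem (show t ∈ Ici (0 : ℝ) from ht)]
      have h4 : ∀ y, F (e.symm (t, y)) =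
          (orl (fun j : Fin n => φ (i.succAbove j)) (s - φ i t)).indicator (fun _ => f t) y := by
        intro y
        by_cases hy : y ∈ orl (fun j : Fin n => φ (i.succAbove j)) (s - φ i t)
        · rw [Set.indicator_of_mem hy]
          have h5 : F (e.symm (t, y)) = f (e.symm (t, y) i) :=
            Set.indicator_of_mem ((hmem t y).mpr ⟨ht, hy⟩) _
          rw [h5, hs1]
        · rw [Set.indicator_of_notMem hy]
          exact Set.indicator_of_notMem (fun h => hy ((hmem t y).mp h).2) _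
      simp only [h4]
      rw [lintegral_indicator (hBm _), setLIntegral_const]
      rfl
    · rw [Set.indicator_of_notMem (show t ∉ Ici (0 : ℝ) from ht)]
      have h4 : ∀ y, F (e.symm (t, y)) = 0 := fun y =>
        Set.indicator_of_notMem (fun h => ht ((hmem t y).mp h).1) _
      simp only [h4, lintegral_zero]
  calc ∫⁻ x in orl φ s, f (x i) = ∫⁻ x, F x := (lintegral_indicator hAm _).symm
    _ = ∫⁻ t : ℝ, ∫⁻ y : Fin n → ℝ, F (e.symm (t, y)) := h1.trans h2
    _ = ∫⁻ t : ℝ, (Ici (0 : ℝ)).indicator (fun t => f t *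
        ov (fun j : Fin n => φ (i.succAbove j)) (s - φ i t)) t := lintegral_congr h3
    _ = ∫⁻ t in Ici (0 : ℝ), f t *
        ov (fun j : Fin n => φ (i.succAbove j)) (s - φ i t) := lintegral_indicator measurableSet_Ici _
    _ = _ := setLIntegral_congr Ioi_ae_eq_Ici.symm

end Vale.Agent.P254U
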