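import Vale.Agent.P254U.OrlV
import Vale.Agent.P254.Four

open MeasureTheory Set Vale.Agent.P254
open scoped ENNReal

namespace Vale.Agent.P254U

theorem OF_lc {n : ℕ} {φ : Fin n → ℝ → ℝ} (hφ : ∀ i, Young (φ i)) (c : ℝ) :
    LC (fun t => ov φ (c - t)) where
  meas := (ov_mono φ).measurable.comp (measurable_const.sub measurable_id)
  fin := fun _ _ => ov_ne_top hφ _
  anti := fun _ _ _ h => ov_mono φ (by linarith)
  mid := fun s t _ _ => by
    have h1 := ov_mid hφ (c - s) (c - t)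
    have h2 : (c - s + (c - t)) / 2 = c - (s + t) / 2 := by ring
    rw [h2] at h1
    exact h1

/-- OF. For `a < b`, `0 < h`: `g t = ov φ (c - t)` is `LC` for every `c`; `four_pt` with
`t = c - (b + h)`, `x = h`, `s = c - a - h`, `s' = s - 1/(k+1)` (with `c` large, `k` large) gives
`ov (b + h) * ov a ≤ ov b * ov (a + h + 1/(k+1))`; let `k → ∞` (`ov_right`). -/
theorem four_ov {n : ℕ} {φ : Fin n → ℝ → ℝ} (hφ : ∀ i, Young (φ i)) {a b h : ℝ} (hab : a ≤ b)
    (hh : 0 ≤ h) : ov φ a * ov φ (b + h) ≤ ov φ (a + h) * ov φ b := by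
  rcases hab.eq_or_lt with hab | hab
  · subst hab
    rw [mul_comm]
  have hb : ov φ b ≠ ∞ := ov_ne_top hφ b
  have hlim : Filter.Tendsto (fun k : ℕ => ov φ b * ov φ (a + h + 1 / ((k : ℝ) + 1)))
      Filter.atTop (nhds (ov φ b * ov φ (a + h))) :=
    ENNReal.Tendsto.const_mul (ov_right hφ (a + h)) (Or.inr hb)
  have hev : ∀ᶠ k : ℕ in Filter.atTop, 1 / ((k : ℝ) + 1) < b - a :=
    (tendsto_one_div_add_atTop_nhds_zero_nat (𝕜 := ℝ)).eventually_lt_const (by linarith)
  have key : ∀ᶠ k : ℕ in Filter.atTop,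
      ov φ a * ov φ (b + h) ≤ ov φ b * ov φ (a + h + 1 / ((k : ℝ) + 1)) := by
    filter_upwards [hev] with k hk
    have hk0 : (0 : ℝ) < 1 / ((k : ℝ) + 1) := by positivity
    have h1 := four_pt (OF_lc hφ (b + h + 1)) (t := 1)
      (s' := b - a + 1 - 1 / ((k : ℝ) + 1)) (s := b - a + 1) (x := h)
      one_pos (by linarith) (by linarith) hh
    have e1 : b + h + 1 - 1 = b + h := by ring
    have e2 : b + h + 1 - (b - a + 1 + h) = a := by ring
    have e3 : b + h + 1 - (1 + h) = b := by ring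
    have e4 : b + h + 1 - (b - a + 1 - 1 / ((k : ℝ) + 1)) = a + h + 1 / ((k : ℝ) + 1) := by ring
    rw [e1, e2, e3, e4, mul_comm (ov φ (b + h))] at h1
    exact h1
  have h2 := ge_of_tendsto hlim key
  rw [mul_comm (ov φ (a + h))]
  exact h2

end Vale.Agent.P254U
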