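import Vale.Agent.P254U.Defs

open MeasureTheory Set
open scoped ENNReal
open Vale.Agent.P254

namespace Vale.Agent.P254U


/-- SC3. Tonelli through `volume_preserving_piFinSuccAbove (fun _ => ℝ) 0`. -/
theorem lintegral_sect {n : ℕ} {A : Set (Fin (n + 1) → ℝ)} (hA : Corner0 A)
    {f : (Fin (n + 1) → ℝ) → ℝ≥0∞} (hf : Measurable f) :
    ∫⁻ x in A, f x = ∫⁻ t in Ioi (0 : ℝ), ∫⁻ y in sect A t, f (Fin.cons t y) := by
  have hAm : MeasurableSet A := hA.compact.isClosed.measurableSet
  have hcons : ∀ t : ℝ, Measurable fun y : Fin n → ℝ => (Fin.cons t y : Fin (n + 1) → ℝ) := by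
    intro t
    refine measurable_pi_lambda _ fun i => ?_
    refine Fin.cases ?_ (fun j => ?_) i
    · simp
    · simpa using measurable_pi_apply j
  have hsm : ∀ t, MeasurableSet (sect A t) := fun t => hcons t hAm
  let F : (Fin (n + 1) → ℝ) → ℝ≥0∞ := A.indicator f
  have hF : Measurable F := hf.indicator hAm
  let e := MeasurableEquiv.piFinSuccAbove (fun _ : Fin (n + 1) => ℝ) 0
  have he : MeasurePreserving e := volume_preserving_piFinSuccAbove (fun _ : Fin (n + 1) => ℝ) 0
  have hesymm : ∀ (t : ℝ) (y : Fin n → ℝ), e.symm (t, y) = (Fin.cons t y : Fin (n + 1) → ℝ) := by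
    intro t y
    change (Fin.insertNth (α := fun _ : Fin (n + 1) => ℝ) 0 t y) = _
    rw [Fin.insertNth_zero]
    rfl
  have h1 : ∫⁻ x, F x = ∫⁻ p : ℝ × (Fin n → ℝ), F (e.symm p) := by
    have h2 := (he.symm e).lintegral_comp_emb e.symm.measurableEmbedding F
    exact h2.symm
  have h2 : ∫⁻ p : ℝ × (Fin n → ℝ), F (e.symm p) =
      ∫⁻ t : ℝ, ∫⁻ y : Fin n → ℝ, F (e.symm (t, y)) := by
    have hm : Measurable fun p : ℝ × (Fin n → ℝ) => F (e.symm p) := hF.comp e.symm.measurable
    exact lintegral_prod _ hm.aemeasurable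
  have h3 : ∀ t : ℝ, ∫⁻ y : Fin n → ℝ, F (e.symm (t, y)) =
      ∫⁻ y in sect A t, f (Fin.cons t y) := by
    intro t
    rw [← lintegral_indicator (hsm t)]
    refine lintegral_congr fun y => ?_
    rw [hesymm]
    by_cases hy : y ∈ sect A t
    · rw [Set.indicator_of_mem hy]
      exact Set.indicator_of_mem (show (Fin.cons t y : Fin (n + 1) → ℝ) ∈ A from hy) _
    · rw [Set.indicator_of_notMem hy]
      exact Set.indicator_of_notMem (show (Fin.cons t y : Fin (n + 1) → ℝ) ∉ A from hy) _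
  have h4 : ∫⁻ x in A, f x = ∫⁻ t : ℝ, ∫⁻ y in sect A t, f (Fin.cons t y) := by
    rw [← lintegral_indicator hAm]
    rw [show (fun x => A.indicator f x) = F from rfl, h1, h2]
    exact lintegral_congr h3
  rw [h4, ← setLIntegral_univ (f := fun t => ∫⁻ y in sect A t, f (Fin.cons t y)),
    ← Set.Iio_union_Ici (a := (0 : ℝ))]
  have hdis : Disjoint (Set.Iio (0 : ℝ)) (Set.Ici 0) :=
    Set.disjoint_left.mpr fun x hx hx' => absurd (Set.mem_Iio.mp hx) (not_lt.mpr (Set.mem_Ici.mp hx'))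
  rw [lintegral_union measurableSet_Ici hdis]
  have h5 : ∫⁻ t in Set.Iio (0 : ℝ), ∫⁻ y in sect A t, f (Fin.cons t y) = 0 := by
    refine (setLIntegral_congr_fun measurableSet_Iio fun t ht => ?_).trans (lintegral_zero)
    have h6 : sect A t = ∅ := by
      rw [Set.eq_empty_iff_forall_notMem]
      intro y hy
      have h7 := hA.nonneg _ hy 0
      rw [Fin.cons_zero] at h7
      exact absurd ht (not_lt.mpr h7)
    rw [h6, Measure.restrict_empty, lintegral_zero_measure]
  rw [h5, zero_add]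
  exact setLIntegral_congr Ioi_ae_eq_Ici.symm

end Vale.Agent.P254U
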