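import Vale.Agent.P254U.OrlR
import Vale.Agent.P254U.Cheb
import Vale.Agent.P254U.Sc2
import Vale.Agent.P254U.Sc3
import Vale.Agent.P254.MainI

open MeasureTheory Set Vale.Agent.P254
open scoped ENNReal

namespace Vale.Agent.P254U

theorem OM_meas {n : ℕ} {A : Set (Fin (n + 1) → ℝ)} (hA : Corner0 A) (i : Fin n) :
    Measurable fun t : ℝ => ∫⁻ y in sect A t, ENNReal.ofReal (y i) := by
  have hm : MeasurableSet A := hA.compact.isClosed.measurableSet
  have h1 : (fun t : ℝ => ∫⁻ y in sect A t, ENNReal.ofReal (y i)) = fun t : ℝ =>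
      ∫⁻ y : Fin n → ℝ, ((fun p : ℝ × (Fin n → ℝ) => (Fin.cons p.1 p.2 : Fin (n + 1) → ℝ)) ⁻¹'
        A).indicator (fun p => ENNReal.ofReal (p.2 i)) (t, y) := by
    funext t
    rw [← lintegral_indicator (SC2_meas_sect hm t)]
    rfl
  rw [h1]
  refine Measurable.lintegral_prod_right' ?_
  refine Measurable.indicator ?_ (SC2_measurable_cons hm)
  exact ((measurable_pi_apply i).comp measurable_snd).ennreal_ofReal

theorem OM_cancel {X g : ℝ≥0∞} {n : ℕ} (hg : g ≠ ∞) (h : X * g ^ (n + 1) ≤ g ^ (n + 2)) :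
    X * g ≤ g ^ 2 := by
  rcases eq_or_ne g 0 with h0 | h0
  · rw [h0]
    simp
  · have h1 : (X * g) * g ^ n ≤ g ^ 2 * g ^ n := by
      calc (X * g) * g ^ n = X * g ^ (n + 1) := by ring
        _ ≤ g ^ (n + 2) := h
        _ = g ^ 2 * g ^ n := by ring
    exact (ENNReal.mul_le_mul_iff_left (pow_ne_zero n h0) (ENNReal.pow_ne_top hg)).1 h1

theorem OM_ratio {m m' g g' : ℝ≥0∞} (hg : g ≠ ∞) (hg' : g' ≠ ∞) (hle : g' ≤ g)
    (h0 : g' = 0 → m' = 0) (h : m' * g ≤ m * g') : m' / g' ≤ m / g := by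
  rcases eq_or_ne g' 0 with h1 | h1
  · rw [h0 h1, ENNReal.zero_div]
    exact zero_le
  · have h2 : g ≠ 0 := fun h3 => h1 (le_antisymm (h3 ▸ hle) zero_le)
    rw [ENNReal.div_le_iff h1 hg']
    have h3 : m / g * g' = (m * g') / g := by
      rw [div_eq_mul_inv, div_eq_mul_inv]
      ring
    rw [h3, ENNReal.le_div_iff_mul_le (Or.inl h2) (Or.inl hg)]
    exact h

/-- OM. Induction on `n`; `n = 0` is `Vale.Agent.P254.first_moment 0` (a corner in dimension one
is `Corner`). Step: `g t = ov (φ ∘ succ) (s - φ 0 t) = sv (orl φ s) t` for `t > 0` (`sect_orl`),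
`V = ∫ g`, `M_0 = ∫ t g`, `M_(i+1) = ∫ m_i` with `m_i t = ∫_(sect) y_i` (`lintegral_sect`).
Put `a_i = m_i / g` (`m_i = a_i * g` since `g t = 0` forces `m_i t = 0`); `a_i` is nonincreasing
on `(0, ∞)` by `mean_mono`; the induction hypothesis is `2^(n+1) ∏ a_i * g ≤ g^2`; `cheb` gives
`V ∏ M_(i+1) ≤ V^(n+1) ∫ ∏ a_i * g`, and `double_int (sv_LC _)` gives `2 M_0 ∫ g^2 ≤ V^3`. -/
theorem orl_main (n : ℕ) (φ : Fin (n + 1) → ℝ → ℝ) (hφ : ∀ i, Young (φ i)) (s : ℝ) :
    2 ^ (n + 1) * ∏ i, ∫⁻ x in orl φ s, ENNReal.ofReal (x i) ≤ (ov φ s) ^ (n + 2) := by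
  induction n generalizing s with
  | zero =>
    have hA := orl_corner hφ s
    have hC : Corner (orl φ s) :=
      { compact := hA.compact
        convex := hA.convex
        nonneg := hA.nonneg
        down := hA.down
        symm := fun x hx σ => by
          have : (fun i => x (σ i)) = x := by
            funext i
            congr 1
            exact Subsingleton.elim (α := Fin 1) _ _
          rw [this]
          exact hx }
    have h1 := first_moment 0 (orl φ s) hC
    simpa [ov] using h1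
  | succ n ih =>
    have hA := orl_corner hφ s
    have hLC := sv_LC hA
    have hψ : ∀ j : Fin (n + 1), Young (fun x => φ j.succ x) := fun j => hφ j.succ
    obtain ⟨g, hg⟩ : ∃ g, g = sv (orl φ s) := ⟨_, rfl⟩
    obtain ⟨V, hV⟩ : ∃ V, V = ov φ s := ⟨_, rfl⟩
    have hgt : ∀ t, 0 < t → g t = ov (fun j : Fin (n + 1) => φ j.succ) (s - φ 0 t) := by
      intro t ht
      rw [hg]
      unfold sv ov
      rw [sect_orl φ s ht.le]
    obtain ⟨m, hm⟩ : ∃ m : Fin (n + 1) → ℝ → ℝ≥0∞,
        ∀ i t, m i t = ∫⁻ y in sect (orl φ s) t, ENNReal.ofReal (y i) := ⟨_, fun i t => rfl⟩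
    have hmt : ∀ i t, 0 < t → m i t =
        ∫⁻ y in orl (fun j : Fin (n + 1) => φ j.succ) (s - φ 0 t), ENNReal.ofReal (y i) := by
      intro i t ht
      rw [hm, sect_orl φ s ht.le]
    have hm0 : ∀ i t, g t = 0 → m i t = 0 := by
      intro i t h0
      rw [hm]
      have h1 : volume (sect (orl φ s) t) = 0 := by
        rw [hg] at h0
        exact h0
      rw [Measure.restrict_eq_zero.2 h1, lintegral_zero_measure]
    have hgfin : ∀ t, 0 < t → g t ≠ ∞ := fun t ht => hg ▸ hLC.fin t ht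
    have hganti : ∀ t t', 0 < t → t ≤ t' → g t' ≤ g t := fun t t' ht h => hg ▸ hLC.anti t t' ht h
    have hgm : Measurable g := hg ▸ hLC.meas
    have hmm : ∀ i, Measurable (m i) := by
      intro i
      have h1 := OM_meas hA i
      have h2 : m i = fun t : ℝ => ∫⁻ y in sect (orl φ s) t, ENNReal.ofReal (y i) :=
        funext fun t => hm i t
      rw [h2]
      exact h1
    have hmg : ∀ i t, 0 < t → m i t / g t * g t = m i t := by
      intro i t ht
      rcases eq_or_ne (g t) 0 with h0 | h0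
      · rw [hm0 i t h0, h0, mul_zero]
      · exact ENNReal.div_mul_cancel h0 (hgfin t ht)
    have hch := cheb hgm (fun i t => m i t / g t) (fun i => (hmm i).div hgm)
      (fun i t t' ht htt => by
        refine OM_ratio (hgfin t ht) (hgfin t' (ht.trans_le htt)) (hganti t t' ht htt)
          (hm0 i t') ?_
        rw [hmt i t' (ht.trans_le htt), hmt i t ht, hgt t ht, hgt t' (ht.trans_le htt)]
        refine mean_mono hψ ?_ i
        have h1 := (hφ 0).mono (show t ∈ Ici (0 : ℝ) from ht.le)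
          (show t' ∈ Ici (0 : ℝ) from (ht.le.trans htt)) htt
        linarith)
    -- integrals
    have hVi : ∫⁻ t in Ioi (0 : ℝ), g t = V := by
      have h1 := lintegral_sect hA (f := fun _ => 1) measurable_const
      rw [hV, hg]
      unfold ov
      simpa [sv] using h1.symm
    have hM0 : ∫⁻ x in orl φ s, ENNReal.ofReal (x 0) =
        ∫⁻ t in Ioi (0 : ℝ), ENNReal.ofReal t * g t := by
      have h1 := lintegral_sect hA (f := fun x => ENNReal.ofReal (x 0))
        (measurable_pi_apply 0).ennreal_ofReal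
      rw [hg]
      simpa [sv] using h1
    have hMi : ∀ i : Fin (n + 1), ∫⁻ t in Ioi (0 : ℝ), m i t / g t * g t =
        ∫⁻ x in orl φ s, ENNReal.ofReal (x i.succ) := by
      intro i
      have h1 := lintegral_sect hA (f := fun x => ENNReal.ofReal (x i.succ))
        (measurable_pi_apply _).ennreal_ofReal
      rw [h1]
      refine setLIntegral_congr_fun measurableSet_Ioi fun t ht => ?_
      rw [hmg i t ht, hm]
      simp only [Fin.cons_succ]
    have hpt : ∀ t, 0 < t → 2 ^ (n + 1) * ((∏ i, m i t / g t) * g t) ≤ g t ^ 2 := by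
      intro t ht
      have h1 := ih (fun j : Fin (n + 1) => φ j.succ) hψ (s - φ 0 t)
      rw [← hgt t ht] at h1
      have h2 : ∏ i, m i t = (∏ i, m i t / g t) * g t ^ (n + 1) := by
        have h3 : ∏ i, m i t = ∏ i : Fin (n + 1), (m i t / g t * g t) :=
          Finset.prod_congr rfl fun i _ => (hmg i t ht).symm
        rw [h3, Finset.prod_mul_distrib, Finset.prod_const, Finset.card_univ, Fintype.card_fin]
      have h4 : ∏ i : Fin (n + 1), ∫⁻ x in orl (fun j : Fin (n + 1) => φ j.succ) (s - φ 0 t),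
          ENNReal.ofReal (x i) = ∏ i, m i t := Finset.prod_congr rfl fun i _ => (hmt i t ht).symm
      rw [h4, h2, ← mul_assoc] at h1
      have h5 := OM_cancel (hgfin t ht) h1
      rw [← mul_assoc]
      exact h5
    have hint : 2 ^ (n + 1) * ∫⁻ t in Ioi (0 : ℝ), (∏ i, m i t / g t) * g t ≤
        ∫⁻ t in Ioi (0 : ℝ), g t ^ 2 := by
      have hme : Measurable fun t => (∏ i, m i t / g t) * g t :=
        (Finset.measurable_fun_prod _ fun i _ => (hmm i).div hgm).mul hgm
      rw [← lintegral_const_mul _ hme]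
      exact setLIntegral_mono' measurableSet_Ioi fun t ht => hpt t ht
    have hdbl := double_int hLC
    rw [← hg, ← hM0, hVi] at hdbl
    rw [hVi] at hch
    have hprod : ∏ i : Fin (n + 1), ∫⁻ t in Ioi (0 : ℝ), m i t / g t * g t =
        ∏ i : Fin (n + 1), ∫⁻ x in orl φ s, ENNReal.ofReal (x i.succ) :=
      Finset.prod_congr rfl fun i _ => hMi i
    rw [hprod] at hch
    rw [Fin.prod_univ_succ, ← hV]
    obtain ⟨M, hMdef⟩ : ∃ M, M = ∫⁻ x in orl φ s, ENNReal.ofReal (x 0) := ⟨_, rfl⟩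
    obtain ⟨P, hP⟩ : ∃ P, P = ∏ i : Fin (n + 1), ∫⁻ x in orl φ s, ENNReal.ofReal (x i.succ) :=
      ⟨_, rfl⟩
    obtain ⟨G, hG⟩ : ∃ G, G = ∫⁻ t in Ioi (0 : ℝ), g t ^ 2 := ⟨_, rfl⟩
    obtain ⟨Q, hQ⟩ : ∃ Q, Q = ∫⁻ t in Ioi (0 : ℝ), (∏ i, m i t / g t) * g t := ⟨_, rfl⟩
    rw [← hP, ← hQ] at hch
    rw [← hQ, ← hG] at hint
    rw [← hMdef, ← hG] at hdbl
    rw [← hMdef, ← hP]
    have hVfin : V ≠ ∞ := by
      rw [hV]
      exact hA.compact.measure_lt_top.ne
    rcases eq_or_ne V 0 with h0 | h0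
    · have h2 : M = 0 := by
        rw [hMdef]
        have h3 : volume (orl φ s) = 0 := by
          rw [hV] at h0
          exact h0
        rw [Measure.restrict_eq_zero.2 h3, lintegral_zero_measure]
      rw [h2, zero_mul, mul_zero]
      exact zero_le
    · have h3 : (2 ^ (n + 1 + 1) * (M * P)) * V ≤ V ^ (n + 1 + 2) * V := by
        calc (2 ^ (n + 1 + 1) * (M * P)) * V = (2 ^ (n + 1) * (V * P)) * (2 * M) := by ring
          _ ≤ (2 ^ (n + 1) * (V ^ (n + 1) * Q)) * (2 * M) := by gcongr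
          _ = (V ^ (n + 1) * (2 ^ (n + 1) * Q)) * (2 * M) := by ring
          _ ≤ (V ^ (n + 1) * G) * (2 * M) := by gcongr
          _ = V ^ (n + 1) * (2 * M * G) := by ring
          _ ≤ V ^ (n + 1) * V ^ 3 := by gcongr
          _ = V ^ (n + 1 + 2) * V := by ring
      exact (ENNReal.mul_le_mul_iff_left h0 hVfin).1 h3

end Vale.Agent.P254U
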