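import Vale.Agent.P254U.OrlF
import Vale.Agent.P254U.OrlD

open MeasureTheory Set Vale.Agent.P254
open scoped ENNReal

namespace Vale.Agent.P254U

theorem OR_mul {x y : ℝ} (hy : 0 ≤ y) (hyx : y ≤ x) {A A' : ℝ≥0∞} (h : A ≤ A') :
    ENNReal.ofReal x * A + ENNReal.ofReal y * A' ≤ ENNReal.ofReal x * A' + ENNReal.ofReal y * A := by
  have hx : ENNReal.ofReal x = ENNReal.ofReal y + ENNReal.ofReal (x - y) := by
    rw [← ENNReal.ofReal_add hy (by linarith)]
    congr 1
    ring
  rw [hx, add_mul, add_mul]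
  have h1 : ENNReal.ofReal (x - y) * A ≤ ENNReal.ofReal (x - y) * A' := by gcongr
  calc ENNReal.ofReal y * A + ENNReal.ofReal (x - y) * A + ENNReal.ofReal y * A'
      ≤ ENNReal.ofReal y * A + ENNReal.ofReal (x - y) * A' + ENNReal.ofReal y * A' := by gcongr
    _ = ENNReal.ofReal y * A' + ENNReal.ofReal (x - y) * A' + ENNReal.ofReal y * A := by ring

/-- OR. By `lintegral_coord` (with `f t = ofReal t` and `f = 1`) and `v = ov (φ ∘ succAbove)`:
the claim is `∬ x v (r - φ x) v (r' - φ y) ≤ ∬ x v (r' - φ x) v (r - φ y)` over `x, y > 0`.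
Symmetrize; for `y ≤ x`, with `A = v (r - φ x) v (r' - φ y)`, `A' = v (r - φ y) v (r' - φ x)`,
`four_ov` gives `A ≤ A'`, hence `x A + y A' ≤ x A' + y A` (write `x = y + d`). -/
theorem mean_mono {n : ℕ} {φ : Fin (n + 1) → ℝ → ℝ} (hφ : ∀ i, Young (φ i)) {r r' : ℝ}
    (hr : r ≤ r') (i : Fin (n + 1)) :
    (∫⁻ x in orl φ r, ENNReal.ofReal (x i)) * ov φ r' ≤
      (∫⁻ x in orl φ r', ENNReal.ofReal (x i)) * ov φ r := by
  set ψ : Fin n → ℝ → ℝ := fun j => φ (i.succAbove j) with hψdef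
  have hψ : ∀ j, Young (ψ j) := fun j => hφ _
  set μ : Measure ℝ := volume.restrict (Ioi 0) with hμ
  have hov : ∀ s, ov φ s = ∫⁻ t in Ioi (0 : ℝ), ov ψ (s - φ i t) := by
    intro s
    have h := lintegral_coord hφ s i (f := fun _ => 1) measurable_const
    simp only [lintegral_const, one_mul] at h
    unfold ov
    rw [Measure.restrict_apply_univ] at h
    exact h
  have hmono : ∀ s, AEMeasurable (fun t => ov ψ (s - φ i t)) μ := by
    intro s
    have h1 : AEMeasurable (φ i) (volume.restrict (Ioi (0:ℝ))) :=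
      aemeasurable_restrict_of_monotoneOn measurableSet_Ioi
        ((hφ i).mono.mono Ioi_subset_Ici_self)
    have h2 : AEMeasurable (fun t => s - φ i t) (volume.restrict (Ioi (0:ℝ))) :=
      h1.const_sub s
    exact (ov_mono ψ).measurable.comp_aemeasurable h2
  have hX : Measurable (fun t : ℝ => ENNReal.ofReal t) := ENNReal.measurable_ofReal
  have ha := hmono r
  have hb := hmono r'
  have hXa : AEMeasurable (fun t => ENNReal.ofReal t * ov ψ (r - φ i t)) μ :=
    hX.aemeasurable.mul ha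
  have hXb : AEMeasurable (fun t => ENNReal.ofReal t * ov ψ (r' - φ i t)) μ :=
    hX.aemeasurable.mul hb
  have m1 : AEMeasurable (fun p : ℝ × ℝ =>
      (ENNReal.ofReal p.1 * ov ψ (r - φ i p.1)) * ov ψ (r' - φ i p.2)) (μ.prod μ) :=
    (hXa.comp_quasiMeasurePreserving Measure.quasiMeasurePreserving_fst).mul
      (hb.comp_quasiMeasurePreserving Measure.quasiMeasurePreserving_snd)
  have m2 : AEMeasurable (fun p : ℝ × ℝ =>
      (ENNReal.ofReal p.1 * ov ψ (r' - φ i p.1)) * ov ψ (r - φ i p.2)) (μ.prod μ) :=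
    (hXb.comp_quasiMeasurePreserving Measure.quasiMeasurePreserving_fst).mul
      (ha.comp_quasiMeasurePreserving Measure.quasiMeasurePreserving_snd)
  have L1 := lintegral_prod_mul hXa hb
  have L2 := lintegral_prod_mul hb hXa
  have R1 := lintegral_prod_mul hXb ha
  have R2 := lintegral_prod_mul ha hXb
  rw [lintegral_coord hφ r i (f := fun t => ENNReal.ofReal t) hX,
    lintegral_coord hφ r' i (f := fun t => ENNReal.ofReal t) hX, hov r, hov r']
  set LL := (∫⁻ t in Ioi (0 : ℝ), ENNReal.ofReal t * ov ψ (r - φ i t)) *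
    ∫⁻ t in Ioi (0 : ℝ), ov ψ (r' - φ i t) with hLL
  set RR := (∫⁻ t in Ioi (0 : ℝ), ENNReal.ofReal t * ov ψ (r' - φ i t)) *
    ∫⁻ t in Ioi (0 : ℝ), ov ψ (r - φ i t) with hRR
  have key : LL + LL ≤ RR + RR := by
    have e1 : LL + LL = ∫⁻ p : ℝ × ℝ,
        ((ENNReal.ofReal p.1 * ov ψ (r - φ i p.1)) * ov ψ (r' - φ i p.2) +
          ov ψ (r' - φ i p.1) * (ENNReal.ofReal p.2 * ov ψ (r - φ i p.2))) ∂(μ.prod μ) := by
      rw [lintegral_add_left' m1]
      congr 1
      · exact L1.symm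
      · rw [hLL, mul_comm]
        exact L2.symm
    have e2 : RR + RR = ∫⁻ p : ℝ × ℝ,
        ((ENNReal.ofReal p.1 * ov ψ (r' - φ i p.1)) * ov ψ (r - φ i p.2) +
          ov ψ (r - φ i p.1) * (ENNReal.ofReal p.2 * ov ψ (r' - φ i p.2))) ∂(μ.prod μ) := by
      rw [lintegral_add_left' m2]
      congr 1
      · exact R1.symm
      · rw [hRR, mul_comm]
        exact R2.symm
    rw [e1, e2]
    refine lintegral_mono_ae ?_
    have hae : ∀ᵐ p : ℝ × ℝ ∂(μ.prod μ), p ∈ Ioi (0:ℝ) ×ˢ Ioi (0:ℝ) := by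
      rw [hμ, Measure.prod_restrict]
      exact ae_restrict_mem (measurableSet_Ioi.prod measurableSet_Ioi)
    filter_upwards [hae] with p hp
    obtain ⟨x, y⟩ := p
    have hx : 0 < x := hp.1
    have hy : 0 < y := hp.2
    have four : ∀ x y : ℝ, 0 < y → y ≤ x →
        ov ψ (r - φ i x) * ov ψ (r' - φ i y) ≤ ov ψ (r' - φ i x) * ov ψ (r - φ i y) := by
      intro x y hy hyx
      have h1 : φ i y ≤ φ i x := (hφ i).mono (mem_Ici.2 hy.le) (mem_Ici.2 (hy.le.trans hyx)) hyx
      have h2 := four_ov hψ (a := r - φ i x) (b := r - φ i y) (h := r' - r) (by linarith)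
        (by linarith)
      have e3 : r - φ i y + (r' - r) = r' - φ i y := by ring
      have e4 : r - φ i x + (r' - r) = r' - φ i x := by ring
      rwa [e3, e4] at h2
    simp only
    rcases le_total y x with h | h
    · have h1 := four x y hy h
      have h2 := OR_mul hy.le h h1
      calc _ = ENNReal.ofReal x * (ov ψ (r - φ i x) * ov ψ (r' - φ i y)) +
            ENNReal.ofReal y * (ov ψ (r' - φ i x) * ov ψ (r - φ i y)) := by ring
        _ ≤ _ := h2
        _ = _ := by ring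
    · have h1 := four y x hx h
      have h2 := OR_mul hx.le h h1
      calc _ = ENNReal.ofReal y * (ov ψ (r - φ i y) * ov ψ (r' - φ i x)) +
            ENNReal.ofReal x * (ov ψ (r' - φ i y) * ov ψ (r - φ i x)) := by ring
        _ ≤ _ := h2
        _ = _ := by ring
  by_contra hcon
  exact absurd key (not_le.2 (ENNReal.add_lt_add (not_le.1 hcon) (not_le.1 hcon)))

end Vale.Agent.P254U
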