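import Vale.Agent.P254U.OrlC
import Vale.Agent.P074.PL

open MeasureTheory Set Vale.Agent.P254
open scoped ENNReal

namespace Vale.Agent.P254U

theorem ov_ne_top {n : ℕ} {φ : Fin n → ℝ → ℝ} (hφ : ∀ i, Young (φ i)) (s : ℝ) :
    ov φ s ≠ ∞ :=
  (orl_corner hφ s).compact.measure_lt_top.ne

theorem ov_mono {n : ℕ} (φ : Fin n → ℝ → ℝ) : Monotone (ov φ) := by
  intro s t hst
  exact measure_mono fun x hx => ⟨hx.1, hx.2.trans hst⟩

private theorem OV_mid_mem {n : ℕ} {φ : Fin n → ℝ → ℝ} (hφ : ∀ i, Young (φ i)) {s t : ℝ}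
    {x y : Fin n → ℝ} (hx : x ∈ orl φ s) (hy : y ∈ orl φ t) :
    (1 / 2 : ℝ) • (x + y) ∈ orl φ ((s + t) / 2) := by
  refine ⟨fun i => ?_, ?_⟩
  · have h1 := hx.1 i
    have h2 := hy.1 i
    simp only [Pi.smul_apply, Pi.add_apply, smul_eq_mul]
    linarith
  · have h3 : ∀ i, φ i (((1 / 2 : ℝ) • (x + y)) i) ≤ 1 / 2 * φ i (x i) + 1 / 2 * φ i (y i) := by
      intro i
      have h4 := (hφ i).convex.2 (show x i ∈ Ici (0 : ℝ) from hx.1 i)
        (show y i ∈ Ici (0 : ℝ) from hy.1 i) (show (0 : ℝ) ≤ 1 / 2 by norm_num)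
        (show (0 : ℝ) ≤ 1 / 2 by norm_num) (by norm_num)
      simp only [smul_eq_mul] at h4
      have e : ((1 / 2 : ℝ) • (x + y)) i = 1 / 2 * x i + 1 / 2 * y i := by
        simp only [Pi.smul_apply, Pi.add_apply, smul_eq_mul]
        ring
      rw [e]
      exact h4
    have h5 : ∑ i, φ i (((1 / 2 : ℝ) • (x + y)) i) ≤
        ∑ i, (1 / 2 * φ i (x i) + 1 / 2 * φ i (y i)) := Finset.sum_le_sum fun i _ => h3 i
    rw [Finset.sum_add_distrib, ← Finset.mul_sum, ← Finset.mul_sum] at h5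
    have h6 := hx.2
    have h7 := hy.2
    linarith

/-- OV. `Vale.Agent.P074.pl_pi` with indicators: if `x ∈ orl φ s`, `y ∈ orl φ t` then the midpoint
is in `orl φ ((s + t) / 2)` by convexity of the `φ_i` (see P254U/Sc2.lean). -/
theorem ov_mid {n : ℕ} {φ : Fin n → ℝ → ℝ} (hφ : ∀ i, Young (φ i)) (s t : ℝ) :
    ov φ s * ov φ t ≤ ov φ ((s + t) / 2) ^ 2 := by
  have hm : ∀ r, MeasurableSet (orl φ r) := fun r =>
    (orl_corner hφ r).compact.isClosed.measurableSet
  have h1 := Vale.Agent.P074.pl_pi n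
    (f := (orl φ s).indicator 1) (g := (orl φ t).indicator 1)
    (h := (orl φ ((s + t) / 2)).indicator 1)
    (measurable_one.indicator (hm s)) (measurable_one.indicator (hm t))
    (measurable_one.indicator (hm _)) ?_
  · rw [lintegral_indicator_one (hm s), lintegral_indicator_one (hm t),
      lintegral_indicator_one (hm _)] at h1
    exact h1
  · intro x y
    by_cases hx : x ∈ orl φ s
    · by_cases hy : y ∈ orl φ t
      · have hxy := OV_mid_mem hφ hx hy
        rw [indicator_of_mem hx, indicator_of_mem hy, indicator_of_mem hxy]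
        simp
      · rw [indicator_of_notMem hy, mul_zero]
        exact zero_le
    · rw [indicator_of_notMem hx, zero_mul]
      exact zero_le

/-- OVR. `orl φ s = ⋂ orl φ (s + 1/k)`, continuity from above of the measure. -/
theorem ov_right {n : ℕ} {φ : Fin n → ℝ → ℝ} (hφ : ∀ i, Young (φ i)) (s : ℝ) :
    Filter.Tendsto (fun k : ℕ => ov φ (s + 1 / ((k : ℝ) + 1))) Filter.atTop (nhds (ov φ s)) := by
  have hI : ⋂ k : ℕ, orl φ (s + 1 / ((k : ℝ) + 1)) = orl φ s := by
    ext x
    simp only [mem_iInter]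
    constructor
    · intro h
      refine ⟨(h 0).1, ?_⟩
      have ht : Filter.Tendsto (fun k : ℕ => s + 1 / ((k : ℝ) + 1)) Filter.atTop (nhds (s + 0)) :=
        tendsto_const_nhds.add tendsto_one_div_add_atTop_nhds_zero_nat
      rw [add_zero] at ht
      exact ge_of_tendsto' ht fun k => (h k).2
    · intro h k
      refine ⟨h.1, h.2.trans ?_⟩
      have : (0 : ℝ) ≤ 1 / ((k : ℝ) + 1) := by positivity
      linarith
  have hm : Antitone fun k : ℕ => orl φ (s + 1 / ((k : ℝ) + 1)) := by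
    intro k l hkl x hx
    refine ⟨hx.1, hx.2.trans ?_⟩
    have h1 : (k : ℝ) ≤ l := by exact_mod_cast hkl
    have : 1 / ((l : ℝ) + 1) ≤ 1 / ((k : ℝ) + 1) :=
      one_div_le_one_div_of_le (by positivity) (by linarith)
    linarith
  have h := tendsto_measure_iInter_atTop (μ := (volume : Measure (Fin n → ℝ)))
    (s := fun k : ℕ => orl φ (s + 1 / ((k : ℝ) + 1)))
    (fun k => (orl_corner hφ _).compact.measurableSet.nullMeasurableSet) hm
    ⟨0, (orl_corner hφ _).compact.measure_lt_top.ne⟩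
  rw [hI] at h
  exact h

end Vale.Agent.P254U
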